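import Crest.Agent.R246.J1.Calc

/-!
R246/J1/Area: area of the cone over a patch.  Statements FROZEN (owner helper2).
-/

set_option autoImplicit false
set_option linter.unusedSectionVars false

open MeasureTheory Metric Filter Topology Set Module
open scoped RealInnerProductSpace ENNReal ContDiff Real

noncomputable section

namespace Crest.Agent.R246.J1

variable {m : ℕ} {E : Type} [NormedAddCommGroup E] [InnerProductSpace ℝ E] [FiniteDimensional ℝ E]
variable [MeasurableSpace E] [BorelSpace E] {G : Hm m → E} {O : Set (Hm m)}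

theorem Imm.hasFDerivAt_cone (h : Imm G O) {q : WithLp 2 (ℝ × Hm m)} (hq : q.snd ∈ O) :
    HasFDerivAt (fun q : WithLp 2 (ℝ × Hm m) => q.fst • G q.snd)
      (cL (fderiv ℝ G q.snd) (G q.snd) q.fst) q := by
  obtain ⟨L, h1, h2⟩ := h.hasFDerivAt_smul (q := q.ofLp) hq
  have := h1.comp q (WithLp.prodContinuousLinearEquiv 2 ℝ ℝ (Hm m)).hasFDerivAt
  refine HasFDerivAt.congr_fderiv this ?_
  ext u
  exact h2 _

theorem area_cont : Continuous fun L : Hm m →L[ℝ] E => LinearMap.normDet (L : Hm m →ₗ[ℝ] E) := by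
  have : ∀ L : Hm m →L[ℝ] E, LinearMap.normDet (L : Hm m →ₗ[ℝ] E) =
      √(Matrix.gram ℝ fun i => L (EuclideanSpace.basisFun (Fin m) ℝ i)).det := fun L => by
    rw [← Real.sqrt_sq (LinearMap.normDet_nonneg (L : Hm m →ₗ[ℝ] E))]
    exact congrArg _ (LinearMap.normDet_sq_eq_det_gram (L : Hm m →ₗ[ℝ] E) _)
  simp only [this]
  refine (Continuous.matrix_det (continuous_matrix fun i j => ?_)).sqrt
  simp only [Matrix.gram_apply]
  fun_prop

theorem lintegral_rad (g : ℝ → ℝ≥0∞) :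
    ∫⁻ t, g t ∂rad m = ∫⁻ t in Ioi 0, ENNReal.ofReal (t ^ m) * g t :=
  lintegral_withDensity_eq_lintegral_mul_non_measurable _ (by fun_prop)
    (Eventually.of_forall fun _ => ENNReal.ofReal_lt_top) g

/-- `StArea` for `q ↦ q.fst • G q.snd` on `{0 < q.fst, q.snd ∈ O} ⊆ WithLp 2 (ℝ × Hm m)`
(`normDet_cL`, `WithLp.volume_preserving_ofLp` / `toLp`, `lintegral_prod`; the Jacobian is measurable
on `O` as `√det (gram G z)`, or is a.e. measurable by continuity on `O`), and `StArea` for `G` with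
`φ (t • ·)`. -/
theorem Imm.cone_area (hA : StArea E) (h : Imm G O) (hi : InjOn G O) {S : Set (Hm m)} (hS : S ⊆ O)
    (hm : MeasurableSet S) : MeasurableSet (cn (G '' S)) ∧ ∀ φ : E → ℝ≥0∞, Measurable φ →
      ∫⁻ y in cn (G '' S), φ y ∂(μHE[m + 1] : Measure E) =
        ∫⁻ t, (∫⁻ y in G '' S, φ (t • y) ∂(μHE[m] : Measure E)) ∂rad m := by
  have hc : Continuous (WithLp.ofLp : WithLp 2 (ℝ × Hm m) → ℝ × Hm m) :=
    (WithLp.prodContinuousLinearEquiv 2 ℝ ℝ (Hm m)).continuous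
  have hO := (isOpen_Ioi.prod h.isOpen : IsOpen (Ioi (0 : ℝ) ×ˢ O)).preimage hc
  have hsm : ContDiffOn ℝ 1 (fun q : ℝ × Hm m => q.1 • G q.2) (Ioi 0 ×ˢ O) :=
    contDiffOn_fst.smul ((h.smooth.of_le (by simp)).comp contDiffOn_snd fun q hq => hq.2)
  have hn : ∀ t : ℝ, 0 < t → ∀ z ∈ O, ‖t • G z‖ = t := fun t ht z hz => by
    rw [norm_smul, h.unit z hz, mul_one, Real.norm_of_nonneg ht.le]
  have hS' : MeasurableSet (Ioi (0 : ℝ) ×ˢ S) := measurableSet_Ioi.prod hm
  obtain ⟨h1, h2⟩ := hA (WithLp 2 (ℝ × Hm m)) (fun q => q.fst • G q.snd) _ hO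
    (hsm.comp (WithLp.prodContinuousLinearEquiv 2 ℝ ℝ (Hm m)).contDiff.contDiffOn fun q hq => hq)
    (fun q hq q' hq' e => by
      have e1 : q.fst = q'.fst :=
        ((hn _ hq.1 _ hq.2).symm.trans (congrArg _ e)).trans (hn _ hq'.1 _ hq'.2)
      simp only [e1] at e
      exact (WithLp.ext_iff _).2 (Prod.ext e1
        (hi hq.2 hq'.2 (smul_right_injective E (ne_of_gt hq'.1) e))))
    (fun q hq => by
      rw [(h.hasFDerivAt_cone hq.2).fderiv]
      exact cL_inj (h.inj _ hq.2) (h.unit _ hq.2) (h.orth hq.2) hq.1)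
    (WithLp.ofLp ⁻¹' (Ioi 0 ×ˢ S)) (fun q hq => ⟨hq.1, hS hq.2⟩) (hc.measurable hS')
  have him : (fun q : WithLp 2 (ℝ × Hm m) => q.fst • G q.snd) '' (WithLp.ofLp ⁻¹' (Ioi 0 ×ˢ S)) =
      cn (G '' S) := by
    refine Subset.antisymm ?_ ?_
    · rintro _ ⟨q, hq, rfl⟩
      exact ⟨_, hq.1, _, ⟨_, hq.2, rfl⟩, rfl⟩
    · rintro _ ⟨t, ht, _, ⟨z, hz, rfl⟩, rfl⟩
      exact ⟨WithLp.toLp 2 (t, z), ⟨ht, hz⟩, rfl⟩
  have hr : finrank ℝ (WithLp 2 (ℝ × Hm m)) = m + 1 := by
    rw [(WithLp.linearEquiv 2 ℝ (ℝ × Hm m)).finrank_eq]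
    simp [add_comm]
  rw [him] at h1
  rw [him, hr] at h2
  refine ⟨h1, fun φ hφ => ?_⟩
  obtain ⟨-, h3⟩ := hA (Hm m) G O h.isOpen (h.smooth.of_le (by simp)) hi h.inj S hS hm
  rw [finrank_euclideanSpace_fin] at h3
  set J : Hm m → ℝ≥0∞ := fun z => ENNReal.ofReal (LinearMap.normDet (fderiv ℝ G z : Hm m →ₗ[ℝ] E))
  have hJ : Measurable J := (area_cont.measurable.comp (measurable_fderiv ℝ G)).ennreal_ofReal
  have h4 := (WithLp.volume_preserving_symm_measurableEquiv_toLp_prod ℝ (Hm m)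
    ).setLIntegral_comp_preimage_emb (MeasurableEquiv.measurableEmbedding _)
    (fun q => ENNReal.ofReal (q.1 ^ m) * (φ (q.1 • G q.2) * J q.2)) (Ioi 0 ×ˢ S)
  rw [h2 φ hφ, setLIntegral_congr_fun (hc.measurable hS') (g := fun q =>
    ENNReal.ofReal (q.fst ^ m) * (φ (q.fst • G q.snd) * J q.snd)) fun q hq => by
      have q1 : 0 < q.fst := hq.1
      have q2 : q.snd ∈ O := hS hq.2
      simp only [(h.hasFDerivAt_cone q2).fderiv]
      rw [normDet_cL (h.unit _ q2) (h.orth q2) q1, ENNReal.ofReal_mul (pow_nonneg q1.le _),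
        mul_left_comm]]
  refine h4.trans ?_
  rw [lintegral_rad, Measure.volume_eq_prod, ← Measure.prod_restrict, lintegral_prod]
  · refine lintegral_congr fun t => ?_
    rw [h3 (fun y => φ (t • y)) (hφ.comp (measurable_const_smul t)),
      ← lintegral_const_mul' _ _ ENNReal.ofReal_ne_top]
  · rw [Measure.prod_restrict]
    refine AEMeasurable.mul (by fun_prop) (AEMeasurable.mul (hφ.comp_aemeasurable ?_)
      (hJ.comp measurable_snd).aemeasurable)
    exact (hsm.continuousOn.mono (prod_mono_right hS)).aemeasurable hS'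

/-! ### radial integrals -/

theorem rad_pos : ∀ᵐ t ∂rad m, 0 < t := by
  exact withDensity_absolutelyContinuous _ _ (ae_restrict_mem measurableSet_Ioi)

theorem rad_Iic (R : ℝ) (hR : 0 ≤ R) : rad m (Iic R) = ENNReal.ofReal (R ^ (m + 1) / (m + 1)) := by
  rw [rad, withDensity_apply _ measurableSet_Iic, Measure.restrict_restrict measurableSet_Iic,
    Iic_inter_Ioi, ← ofReal_integral_eq_lintegral_ofReal
      ((continuous_pow m).integrableOn_Icc.mono_set Ioc_subset_Icc_self)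
      ((ae_restrict_mem measurableSet_Ioc).mono fun t ht => pow_nonneg ht.1.le _),
    ← intervalIntegral.integral_of_le hR, integral_pow]
  simp

theorem area_ae : ∀ᵐ t ∂(volume : Measure ℝ).restrict (Ioi 0),
    (ENNReal.ofReal (t ^ m)).toReal = t ^ (m : ℝ) :=
  (ae_restrict_mem measurableSet_Ioi).mono fun t ht => by
    rw [ENNReal.toReal_ofReal (pow_nonneg (le_of_lt ht) _), Real.rpow_natCast]

/-- `integrableOn_rpow_mul_exp_neg_mul_sq` -/
theorem integrable_rad {b : ℝ} (hb : 0 < b) : Integrable (fun t => Real.exp (-b * t ^ 2)) (rad m) := by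
  rw [rad, integrable_withDensity_iff_integrable_smul' (by fun_prop)
    (Eventually.of_forall fun _ => ENNReal.ofReal_lt_top)]
  refine (integrableOn_rpow_mul_exp_neg_mul_sq hb (s := m) (by linarith [m.cast_nonneg (α := ℝ)])).congr
    ((area_ae (m := m)).mono fun t ht => ?_)
  simp only [ht, smul_eq_mul]

open Crest.GeometryTopology.SphereImmersion in
/-- `integral_rpow_mul_exp_neg_mul_rpow` -/
theorem integral_rad : ∫ t, (√(2 * π) * 1)⁻¹ ^ (m + 1) * Real.exp (-t ^ 2 / (2 * 1 ^ 2)) ∂rad m =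
    (unitSphereArea m)⁻¹ := by
  rw [integral_const_mul, rad, integral_withDensity_eq_integral_toReal_smul (by fun_prop)
    (Eventually.of_forall fun _ => ENNReal.ofReal_lt_top),
    integral_congr_ae (g := fun t => t ^ (m : ℝ) * Real.exp (-(1 / 2) * t ^ (2 : ℝ)))
      ((area_ae (m := m)).mono fun t ht => by
        simp only [ht, smul_eq_mul, Real.rpow_two]
        congr 2
        ring),
    integral_rpow_mul_exp_neg_mul_rpow two_pos (by linarith [m.cast_nonneg (α := ℝ)]) one_half_pos,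
    unitSphereArea]
  have hp := Real.pi_pos
  have h1 : (√(2 * π) * 1)⁻¹ ^ (m + 1) = (2 ^ (((m : ℝ) + 1) / 2) * π ^ (((m : ℝ) + 1) / 2))⁻¹ := by
    rw [mul_one, inv_pow, Real.sqrt_eq_rpow, ← Real.rpow_natCast, ← Real.rpow_mul (by positivity),
      ← Real.mul_rpow (by positivity) hp.le]
    congr 2
    push_cast
    ring
  have h2 : (1 / 2 : ℝ) ^ (-((m : ℝ) + 1) / 2) = 2 ^ (((m : ℝ) + 1) / 2) := by
    rw [one_div, Real.inv_rpow (by norm_num), neg_div, Real.rpow_neg (by norm_num), inv_inv]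
  rw [h1, h2]
  have : (0 : ℝ) < 2 ^ (((m : ℝ) + 1) / 2) := by positivity
  field_simp

end Crest.Agent.R246.J1
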