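import Crest.Agent.R246.J1.Lin

/-!
R246/J1/Calc: calculus of an immersion into the sphere.  Statements FROZEN (owner helper2).
-/

set_option autoImplicit false
set_option linter.unusedSectionVars false

open MeasureTheory Metric Filter Topology Set Module
open scoped RealInnerProductSpace ENNReal ContDiff Real

noncomputable section

namespace Crest.Agent.R246.J1

variable {m : ℕ} {E : Type} [NormedAddCommGroup E] [InnerProductSpace ℝ E] [FiniteDimensional ℝ E]
variable {G : Hm m → E} {O : Set (Hm m)} {c : Hm m}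

/-! ### part a -/

theorem Imm.mono (h : Imm G O) {O' : Set (Hm m)} (hO : IsOpen O') (hs : O' ⊆ O) : Imm G O' :=
  ⟨hO, h.smooth.mono hs, fun z hz => h.unit z (hs hz), fun z hz => h.inj z (hs hz)⟩

theorem Imm.contDiffAt (h : Imm G O) (hc : c ∈ O) : ContDiffAt ℝ ∞ G c :=
  h.smooth.contDiffAt (h.isOpen.mem_nhds hc)

theorem Imm.contDiffOn_d1 (h : Imm G O) (i : Fin m) : ContDiffOn ℝ ∞ (d1 G i) O := by
  exact (h.smooth.fderiv_of_isOpen h.isOpen (by simp)).clm_apply contDiffOn_const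

theorem fderiv_eq_sum (G : Hm m → E) (c u : Hm m) : fderiv ℝ G c u = ∑ i, u i • d1 G i c := by
  conv_lhs => rw [← (EuclideanSpace.basisFun (Fin m) ℝ).sum_repr u]
  simp [d1]

theorem Imm.hasFDerivAt (h : Imm G O) (hc : c ∈ O) : HasFDerivAt G (fderiv ℝ G c) c :=
  ((h.contDiffAt hc).differentiableAt (by simp)).hasFDerivAt

theorem Imm.hasFDerivAt_d1 (h : Imm G O) (hc : c ∈ O) (i : Fin m) :
    HasFDerivAt (d1 G i) (fderiv ℝ (d1 G i) c) c :=
  (((h.contDiffOn_d1 i).contDiffAt (h.isOpen.mem_nhds hc)).differentiableAt (by simp)).hasFDerivAt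

/-- derivative of a locally constant inner product -/
theorem calc_inner {X : Type*} [NormedAddCommGroup X] [NormedSpace ℝ X] {a b : X → E}
    {a' b' : X →L[ℝ] E} {x : X} (ha : HasFDerivAt a a' x) (hb : HasFDerivAt b b' x) {k : ℝ}
    (h : ∀ᶠ y in 𝓝 x, ⟪a y, b y⟫ = k) (u : X) : ⟪a x, b' u⟫ + ⟪a' u, b x⟫ = 0 := by
  have h1 := ((ha.inner ℝ hb).congr_of_eventuallyEq (f₁ := fun _ => k)
    (h.mono fun y hy => hy.symm)).unique (hasFDerivAt_const k x)
  simpa using DFunLike.congr_fun h1 u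

/-- differentiate `⟪G, G⟫ = 1` -/
theorem Imm.orth (h : Imm G O) (hc : c ∈ O) (u : Hm m) : ⟪G c, fderiv ℝ G c u⟫ = 0 := by
  have := calc_inner (h.hasFDerivAt hc) (h.hasFDerivAt hc) (k := 1)
    (Eventually.mono (h.isOpen.mem_nhds hc) fun y hy => by
      rw [real_inner_self_eq_norm_sq, h.unit y hy, one_pow]) u
  rw [real_inner_comm (G c)] at this
  linarith

theorem Imm.fr (h : Imm G O) (hc : c ∈ O) : Fr (fun i => d1 G i c) (G c) := by
  refine ⟨?_, h.unit c hc, fun i => h.orth hc _⟩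
  have := (EuclideanSpace.basisFun (Fin m) ℝ).toBasis.linearIndependent.map'
    (fderiv ℝ G c : Hm m →ₗ[ℝ] E) (LinearMap.ker_eq_bot.2 (h.inj c hc))
  have e : (fun i => d1 G i c) = (fderiv ℝ G c : Hm m →ₗ[ℝ] E) ∘
      (EuclideanSpace.basisFun (Fin m) ℝ).toBasis := by
    ext i
    simp [d1]
  rwa [e]

/-- differentiate `⟪G, d1 G j⟫ = 0` -/
theorem Imm.inner_d2 (h : Imm G O) (hc : c ∈ O) (i j : Fin m) :
    ⟪G c, d2 G i j c⟫ = -gram G c i j := by
  have := calc_inner (h.hasFDerivAt hc) (h.hasFDerivAt_d1 hc j) (k := 0)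
    (Eventually.mono (h.isOpen.mem_nhds hc) fun y hy => h.orth hy _) (EuclideanSpace.single i 1)
  exact eq_neg_of_add_eq_zero_left this

theorem Imm.d2_eq (h : Imm G O) (hc : c ∈ O) (i j : Fin m) : d2 G i j c =
    fderiv ℝ (fderiv ℝ G) c (EuclideanSpace.single i 1) (EuclideanSpace.single j 1) := by
  have h1 : DifferentiableAt ℝ (fderiv ℝ G) c :=
    ((h.contDiffAt hc).fderiv_right (m := 1) (WithTop.coe_le_coe.2 le_top)).differentiableAt one_ne_zero
  have h2 := (h1.hasFDerivAt.clm_apply (hasFDerivAt_const (EuclideanSpace.single j (1 : ℝ)) c)).fderiv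
  rw [d2, d1, show d1 G j = fun y => fderiv ℝ G y (EuclideanSpace.single j 1) from rfl, h2]
  simp

/-- `ContDiffAt.isSymmSndFDerivAt` -/
theorem Imm.d2_symm (h : Imm G O) (hc : c ∈ O) (i j : Fin m) : d2 G i j c = d2 G j i c := by
  rw [h.d2_eq hc, h.d2_eq hc]
  exact (h.contDiffAt hc).isSymmSndFDerivAt
    (by rw [minSmoothness_of_isRCLikeNormedField]; exact WithTop.coe_le_coe.2 le_top) _ _

theorem Imm.contDiffOn_gram (h : Imm G O) (i j : Fin m) :
    ContDiffOn ℝ ∞ (fun z => gram G z i j) O := by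
  exact (h.contDiffOn_d1 i).inner ℝ (h.contDiffOn_d1 j)

theorem Imm.fderiv_gram (h : Imm G O) (hc : c ∈ O) (k i j : Fin m) :
    fderiv ℝ (fun z => gram G z i j) c (EuclideanSpace.single k 1) =
      ⟪d2 G k i c, d1 G j c⟫ + ⟪d1 G i c, d2 G k j c⟫ := by
  have := ((h.hasFDerivAt_d1 hc i).inner ℝ (h.hasFDerivAt_d1 hc j)).fderiv
  rw [show (fun z => gram G z i j) = fun z => ⟪d1 G i z, d1 G j z⟫ from rfl, this, add_comm]
  rfl

/-- a vector orthogonal to `G` on `O` is orthogonal to its derivatives -/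
theorem Imm.perp_of_flat (h : Imm G O) (hc : c ∈ O) {e : E} (he : ∀ z ∈ O, ⟪e, G z⟫ = 0) :
    Perp G c e ∧ ∀ i j, ⟪e, d2 G i j c⟫ = 0 := by
  have h1 : ∀ z ∈ O, ∀ j, ⟪e, d1 G j z⟫ = 0 := fun z hz j => by
    simpa [d1] using calc_inner (hasFDerivAt_const e z) (h.hasFDerivAt hz)
      (Eventually.mono (h.isOpen.mem_nhds hz) he) (EuclideanSpace.single j 1)
  refine ⟨⟨he c hc, h1 c hc⟩, fun i j => ?_⟩
  simpa [d2, d1] using calc_inner (hasFDerivAt_const e c) (h.hasFDerivAt_d1 hc j)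
    (Eventually.mono (h.isOpen.mem_nhds hc) fun z hz => h1 z hz j) (EuclideanSpace.single i 1)

/-! ### part b -/

theorem calc_grad {f : E → ℝ} {y : E} (hf : ContDiffAt ℝ ∞ f y) :
    HasFDerivAt (gradient f) (hess f y) y := by
  have h1 : DifferentiableAt ℝ (fderiv ℝ f) y :=
    (hf.fderiv_right (m := 1) (WithTop.coe_le_coe.2 le_top)).differentiableAt one_ne_zero
  exact ((InnerProductSpace.toDual ℝ E).symm.toContinuousLinearEquiv.differentiableAt.comp y
    h1).hasFDerivAt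

theorem Imm.hasFDerivAt_smul (h : Imm G O) {q : ℝ × Hm m} (hq : q.2 ∈ O) :
    ∃ L : ℝ × Hm m →L[ℝ] E, HasFDerivAt (fun q : ℝ × Hm m => q.1 • G q.2) L q ∧
      ∀ u, L u = u.1 • G q.2 + q.1 • fderiv ℝ G q.2 u.2 :=
  ⟨_, hasFDerivAt_fst.smul (HasFDerivAt.comp (f := fun q : ℝ × Hm m => q.2) q (h.hasFDerivAt hq)
    hasFDerivAt_snd), fun u => by simp [add_comm]⟩

/-- differentiate `f (s • G z) = 0` twice.  First: near `(t, c)`, `⟪∇f (s • G z), G z⟫ = 0` and
`⟪∇f (s • G z), d1 G j z⟫ = 0` (`Filter.Eventually.eventually_nhds`); then differentiate these in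
`s`, resp. `z i`.  `gradient f` is differentiable at `t • G c` with derivative `hess f _`. -/
theorem Imm.zero_calc (h : Imm G O) (hc : c ∈ O) {t : ℝ} (ht : 0 < t) {f : E → ℝ}
    (hf : ContDiffAt ℝ ∞ f (t • G c))
    (h0 : ∀ᶠ q : ℝ × Hm m in 𝓝 (t, c), f (q.1 • G q.2) = 0) :
    Perp G c (gradient f (t • G c)) ∧ ⟪G c, hess f (t • G c) (G c)⟫ = 0 ∧
      ∀ i j, t * ⟪hess f (t • G c) (d1 G i c), d1 G j c⟫ = -⟪gradient f (t • G c), d2 G i j c⟫ := by
  obtain ⟨L, hL, hL'⟩ := h.hasFDerivAt_smul (q := (t, c)) hc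
  have hd : ∀ᶠ y in 𝓝 (t • G c), DifferentiableAt ℝ f y :=
    ((hf.of_le (m := 1) (by simp)).eventually (by simp)).mono fun y hy =>
      hy.differentiableAt one_ne_zero
  have h1 : ∀ᶠ q : ℝ × Hm m in 𝓝 (t, c), ⟪gradient f (q.1 • G q.2), G q.2⟫ = 0 ∧
      ∀ j, ⟪gradient f (q.1 • G q.2), d1 G j q.2⟫ = 0 := by
    filter_upwards [h0.eventually_nhds, hL.continuousAt.eventually hd,
      continuousAt_snd.eventually (h.isOpen.mem_nhds hc),
      continuousAt_fst.eventually (lt_mem_nhds ht)] with q hq hfq hqO hq0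
    obtain ⟨L', hL1, hL2⟩ := h.hasFDerivAt_smul (q := q) hqO
    have h2 := ((hfq.hasFDerivAt.comp q hL1).congr_of_eventuallyEq (f₁ := fun _ => 0)
      (hq.mono fun y hy => hy.symm)).unique (hasFDerivAt_const 0 q)
    refine ⟨?_, fun j => ?_⟩
    · simpa [hL2] using DFunLike.congr_fun h2 (1, 0)
    · have := DFunLike.congr_fun h2 (0, EuclideanSpace.single j 1)
      simpa [hL2, hq0.ne', d1] using this
  have hg : HasFDerivAt (fun q : ℝ × Hm m => gradient f (q.1 • G q.2)) (hess f (t • G c) ∘L L) (t, c) :=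
    HasFDerivAt.comp (f := fun q : ℝ × Hm m => q.1 • G q.2) (t, c) (calc_grad hf) hL
  refine ⟨h1.self_of_nhds, ?_, fun i j => ?_⟩
  · have := calc_inner hg (HasFDerivAt.comp (f := fun q : ℝ × Hm m => q.2) (t, c) (h.hasFDerivAt hc)
      hasFDerivAt_snd) (h1.mono fun q hq => hq.1) (1, 0)
    rw [real_inner_comm]
    simpa [hL'] using this
  · have := calc_inner hg (HasFDerivAt.comp (f := fun q : ℝ × Hm m => q.2) (t, c)
      (h.hasFDerivAt_d1 hc j) hasFDerivAt_snd) (h1.mono fun q hq => hq.2 j)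
      (0, EuclideanSpace.single i 1)
    refine eq_neg_of_add_eq_zero_right ?_
    simpa [hL', inner_smul_left, d2, d1] using this

/-- `Fr.trace`, `zero_calc` -/
theorem Imm.min_of_zero (h : Imm G O) (hE : finrank ℝ E = m + 2) (hc : c ∈ O) (hm : MinAt G c)
    {t : ℝ} (ht : 0 < t) {f : E → ℝ} (hf : ContDiffAt ℝ ∞ f (t • G c))
    (h0 : ∀ᶠ q : ℝ × Hm m in 𝓝 (t, c), f (q.1 • G q.2) = 0) (hne : gradient f (t • G c) ≠ 0) :
    ‖gradient f (t • G c)‖ ^ 2 * lap f (t • G c) =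
      ⟪gradient f (t • G c), hess f (t • G c) (gradient f (t • G c))⟫ := by
  obtain ⟨h1, h2, h3⟩ := h.zero_calc hc ht hf h0
  have h4 : ∑ i, ∑ j, (gram G c)⁻¹ i j * ⟪hess f (t • G c) (d1 G i c), d1 G j c⟫ = 0 := by
    refine mul_left_cancel₀ ht.ne' ?_
    have := hm _ h1
    simp only [Finset.mul_sum, mul_left_comm t, h3, mul_neg, Finset.sum_neg_distrib, this, neg_zero,
      mul_zero]
  rw [lap, (h.fr hc).trace hE hne h1, h2]
  rw [gram] at h4
  rw [h4]
  simp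

end Crest.Agent.R246.J1
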