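import Crest.Agent.R246.Fub

/-!
# R246/J1/Defs: the bridge from the immersed manifold to a cone (owner helper2).  FROZEN.

`F : M → E`, `finrank E = m + 2`, `‖F‖ = 1`.  In the preferred chart at `x` it reads `ch m F x`.
`cn A` is the open cone over `A`.  `ν` = pull-back of `μHE[m]` to `M` (counted with multiplicity),
`vF` = the cone varifold with multiplicity, the image of `t^m dt ⊗ ν`.
-/

set_option autoImplicit false
set_option linter.unusedSectionVars false

open MeasureTheory Metric Filter Topology Set Module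
open scoped RealInnerProductSpace ENNReal ContDiff Real

noncomputable section

namespace Crest.Agent.R246.J1

abbrev Hm (m : ℕ) := EuclideanSpace ℝ (Fin m)

variable {m : ℕ} {E : Type} [NormedAddCommGroup E] [InnerProductSpace ℝ E] [FiniteDimensional ℝ E]

/-- first partial derivative -/
def d1 (G : Hm m → E) (i : Fin m) (z : Hm m) : E := fderiv ℝ G z (EuclideanSpace.single i 1)

/-- second partial derivative `∂ᵢ∂ⱼ` -/
def d2 (G : Hm m → E) (i j : Fin m) (z : Hm m) : E := d1 (d1 G j) i z

/-- induced metric -/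
def gram (G : Hm m → E) (z : Hm m) : Matrix (Fin m) (Fin m) ℝ := Matrix.gram ℝ fun i => d1 G i z

/-- smooth immersion of an open set into the unit sphere -/
structure Imm (G : Hm m → E) (O : Set (Hm m)) : Prop where
  isOpen : IsOpen O
  smooth : ContDiffOn ℝ ∞ G O
  unit : ∀ z ∈ O, ‖G z‖ = 1
  inj : ∀ z ∈ O, Function.Injective (fderiv ℝ G z)

/-- a frame: independent tangent vectors `v` orthogonal to the unit position vector `x` -/
structure Fr (v : Fin m → E) (x : E) : Prop where
  li : LinearIndependent ℝ v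
  unit : ‖x‖ = 1
  orth : ∀ i, ⟪x, v i⟫ = 0

/-- `w` is orthogonal to the frame -/
def Pp (v : Fin m → E) (x w : E) : Prop := ⟪w, x⟫ = 0 ∧ ∀ i, ⟪w, v i⟫ = 0

/-- `w` is normal to the cone over `G` at `G c` -/
def Perp (G : Hm m → E) (c : Hm m) (w : E) : Prop := Pp (fun i => d1 G i c) (G c) w

/-- vanishing of the mean curvature in the sphere at `c` -/
def MinAt (G : Hm m → E) (c : Hm m) : Prop :=
  ∀ w, Perp G c w → ∑ i, ∑ j, (gram G c)⁻¹ i j * ⟪w, d2 G i j c⟫ = 0

/-- open cone over a set -/
def cn (A : Set E) : Set E := {y | ∃ t : ℝ, 0 < t ∧ ∃ a ∈ A, y = t • a}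

/-- unit normal of a level set -/
def un (f : E → ℝ) (y : E) : E := ‖gradient f y‖⁻¹ • gradient f y

/-- `t^m dt` on `(0, ∞)` -/
def rad (m : ℕ) : Measure ℝ :=
  ((volume : Measure ℝ).restrict (Ioi 0)).withDensity fun t => ENNReal.ofReal (t ^ m)

instance (m : ℕ) : SFinite (rad m) := by unfold rad; infer_instance

section mfd

variable (m) {M : Type*} [MetricSpace M] [ChartedSpace (Hm m) M]

/-- `F` in the preferred chart at `x` -/
def ch (F : M → E) (x : M) : Hm m → E := fun z => F ((chartAt (Hm m) x).symm z)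

/-- centre of the preferred chart -/
def ctr (x : M) : Hm m := chartAt (Hm m) x x

/-- all that is used of the minimal immersion -/
structure Cfg (F : M → E) : Prop where
  dim : finrank ℝ E = m + 2
  cont : Continuous F
  unit : ∀ x, ‖F x‖ = 1
  imm : ∀ x, Imm (ch m F x) (chartAt (Hm m) x).target
  min : ∀ x, MinAt (ch m F x) (ctr m x)

/-- unit normal at `x` -/
def Nrm (F : M → E) (x : M) (w : E) : Prop := ‖w‖ = 1 ∧ Perp (ch m F x) (ctr m x) w

/-- the cone over `F '' U` is a smooth minimal hypersurface `{f = 0}` near `p` -/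
structure Sheet (F : M → E) (p : E) (U : Set M) (f : E → ℝ) (O : Set E) : Prop where
  isOpen : IsOpen U
  inj : InjOn F U
  loc : LocAt (cn (F '' U)) p f O
  nrm : ∀ x ∈ U, ∀ t : ℝ, 0 < t → t • F x ∈ O → Nrm m F x (un f (t • F x))

variable {m}

theorem ch_ctr (F : M → E) (x : M) : ch m F x (ctr m x) = F x := by
  rw [ch, ctr, (chartAt (Hm m) x).left_inv (mem_chart_source _ x)]

theorem ctr_mem (x : M) : ctr m x ∈ (chartAt (Hm m) x).target := mem_chart_target _ x

end mfd

section meas

variable (m) [MeasurableSpace E] [BorelSpace E] {M : Type*} [MeasurableSpace M]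

/-- image of `t^m dt ⊗ ν` in `E` -/
def mF (F : M → E) (ν : Measure M) : Measure E := ((rad m).prod ν).map fun z => z.1 • F z.2

/-- the volume of `M`: finite, and `t^m dt ⊗ ν` is the pull-back of the area of the cone -/
structure IsVol (F : M → E) (ν : Measure M) : Prop where
  fin : ν univ < ⊤
  meas : ∀ A, MeasurableSet A → InjOn F A → MeasurableSet (cn (F '' A))
  cone : ∀ A, MeasurableSet A → InjOn F A → mF m F (ν.restrict A) = ar (m + 1) (cn (F '' A))

/-- the cone varifold with multiplicity -/
def vF (F n : M → E) (ν : Measure M) : Measure (E × E) :=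
  ((rad m).prod ν).map fun z => (z.1 • F z.2, n z.2)

end meas

end Crest.Agent.R246.J1
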