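import Crest.Agent.R246.J1.Calc

/-!
R246/J1/Ift: a defining function for a piece of the cone.  Statement FROZEN (owner helper2).
-/

set_option autoImplicit false
set_option linter.unusedSectionVars false

open MeasureTheory Metric Filter Topology Set Module
open scoped RealInnerProductSpace ENNReal ContDiff Real

noncomputable section

namespace Crest.Agent.R246.J1

variable {m : ℕ} {E : Type} [NormedAddCommGroup E] [InnerProductSpace ℝ E] [FiniteDimensional ℝ E]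

/-- smooth inverse function theorem on an open set -/
theorem ift_smooth {X Y : Type*} [NormedAddCommGroup X] [NormedSpace ℝ X] [FiniteDimensional ℝ X]
    [NormedAddCommGroup Y] [NormedSpace ℝ Y] [FiniteDimensional ℝ Y]
    (hd : finrank ℝ X = finrank ℝ Y) {Ψ : X → Y} {B : Set X} (hB : IsOpen B)
    (hΨ : ContDiffOn ℝ ∞ Ψ B) {a : X} (ha : a ∈ B) (hi : Function.Injective (fderiv ℝ Ψ a)) :
    ∃ e : OpenPartialHomeomorph X Y, (e : X → Y) = Ψ ∧ a ∈ e.source ∧ e.source ⊆ B ∧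
      ContDiffOn ℝ ∞ e.symm e.target := by
  have : CompleteSpace X := FiniteDimensional.complete ℝ X
  have hbij : Function.Bijective (fderiv ℝ Ψ a : X →ₗ[ℝ] Y) :=
    ⟨hi, (LinearMap.injective_iff_surjective_of_finrank_eq_finrank hd).1 hi⟩
  let L : X ≃L[ℝ] Y := (LinearEquiv.ofBijective _ hbij).toContinuousLinearEquiv
  have hL : (L : X →L[ℝ] Y) = fderiv ℝ Ψ a := by ext; rfl
  have hat : ∀ x ∈ B, ContDiffAt ℝ ∞ Ψ x := fun x hx => hΨ.contDiffAt (hB.mem_nhds hx)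
  have hD : HasFDerivAt Ψ (L : X →L[ℝ] Y) a := by
    rw [hL]; exact ((hat a ha).differentiableAt (by simp)).hasFDerivAt
  have ho : IsOpen (B ∩ fderiv ℝ Ψ ⁻¹' range ((↑) : (X ≃L[ℝ] Y) → X →L[ℝ] Y)) :=
    (hΨ.continuousOn_fderiv_of_isOpen hB (by simp)).isOpen_inter_preimage hB
      ContinuousLinearEquiv.isOpen
  let e := ((hat a ha).toOpenPartialHomeomorph Ψ hD (by simp)).restrOpen _ ho
  have he : (e : X → Y) = Ψ := rfl
  refine ⟨e, he, ⟨(hat a ha).mem_toOpenPartialHomeomorph_source hD (by simp), ha, L, hL⟩,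
    fun x hx => hx.2.1, fun y hy => ?_⟩
  have hx := e.map_target hy
  obtain ⟨L', hL'⟩ := hx.2.2
  refine (e.contDiffAt_symm (f₀' := L') hy ?_ (he ▸ hat _ hx.2.1)).contDiffWithinAt
  rw [hL', he]
  exact ((hat _ hx.2.1).differentiableAt (by simp)).hasFDerivAt

/-- `ν` unit normal at `c` (`exists_pp`), `Ψ (t, z, τ) = t • G z + τ • ν` on `ℝ × Hm m × ℝ`; `DΨ` is
injective, hence invertible, at `(t₀, c, 0)` and near it; inverse function theorem
(`ContDiffAt.toOpenPartialHomeomorph`, `OpenPartialHomeomorph.contDiffAt_symm`).  Take a box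
`I ×ˢ O₁ ×ˢ J` in the source with `I ⊆ Ioi 0`, `W = Ψ '' box ∩ {‖y‖ ∈ I}`, `f = τ ∘ Ψ⁻¹`;
`f (Ψ (t, z, τ)) = τ` gives `Df ν = 1`. -/
theorem Imm.exists_def {G : Hm m → E} {O : Set (Hm m)} {c : Hm m} (h : Imm G O)
    (hE : finrank ℝ E = m + 2) (hc : c ∈ O) {t₀ : ℝ} (ht : 0 < t₀) :
    ∃ (O₁ : Set (Hm m)) (f : E → ℝ) (W : Set E), IsOpen O₁ ∧ c ∈ O₁ ∧ O₁ ⊆ O ∧ InjOn G O₁ ∧
      IsOpen W ∧ t₀ • G c ∈ W ∧ ContDiffOn ℝ ∞ f W ∧ (∀ y ∈ W, gradient f y ≠ 0) ∧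
      ∀ y ∈ W, y ∈ cn (G '' O₁) ↔ f y = 0 := by
  obtain ⟨ν, hν, hp⟩ := exists_pp hE (fun i => d1 G i c) (G c)
  let Ψ : ℝ × Hm m × ℝ → E := fun q => q.1 • G q.2.1 + q.2.2 • ν
  let B : Set (ℝ × Hm m × ℝ) := Ioi 0 ×ˢ O ×ˢ univ
  have hB : IsOpen B := isOpen_Ioi.prod (h.isOpen.prod isOpen_univ)
  have hΨ : ContDiffOn ℝ ∞ Ψ B :=
    (contDiffOn_fst.smul (h.smooth.comp (contDiff_snd.fst).contDiffOn fun q hq => hq.2.1)).add
      ((contDiff_snd.snd).smul contDiff_const).contDiffOn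
  have ha : ((t₀, c, 0) : ℝ × Hm m × ℝ) ∈ B := ⟨ht, hc, trivial⟩
  have hG : HasFDerivAt G (fderiv ℝ G c) c :=
    ((h.contDiffAt hc).differentiableAt (by simp)).hasFDerivAt
  have hD : ∀ u : ℝ × Hm m × ℝ, fderiv ℝ Ψ (t₀, c, 0) u =
      u.1 • G c + t₀ • fderiv ℝ G c u.2.1 + u.2.2 • ν := fun u => by
    have h1 : HasFDerivAt (fun q : ℝ × Hm m × ℝ => G q.2.1) _ (t₀, c, 0) :=
      HasFDerivAt.comp (f := fun q : ℝ × Hm m × ℝ => q.2.1) (t₀, c, 0) hG hasFDerivAt_snd.fst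
    have h2 := ((hasFDerivAt_fst (𝕜 := ℝ) (p := ((t₀, c, 0) : ℝ × Hm m × ℝ))).smul h1).add
      ((hasFDerivAt_snd (𝕜 := ℝ) (p := ((t₀, c, 0) : ℝ × Hm m × ℝ))).snd.smul_const ν)
    rw [show fderiv ℝ Ψ (t₀, c, 0) = _ from h2.fderiv]
    simp [add_comm]
  have hνL : ∀ u, ⟪ν, fderiv ℝ G c u⟫ = 0 := fun u => by
    rw [fderiv_eq_sum, inner_sum]
    exact Finset.sum_eq_zero fun i _ => by rw [inner_smul_right, hp.2 i, mul_zero]
  have hi : Function.Injective (fderiv ℝ Ψ (t₀, c, 0)) := by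
    refine (injective_iff_map_eq_zero _).2 fun u hu => ?_
    rw [hD] at hu
    have h1 : u.2.2 = 0 := by
      have := congrArg (fun y => ⟪ν, y⟫) hu
      simpa [inner_add_right, inner_smul_right, hp.1, hνL, hν] using this
    have h2 : u.1 = 0 := by
      have := congrArg (fun y => ⟪G c, y⟫) hu
      simpa [inner_add_right, inner_smul_right, h.orth hc, h1, h.unit c hc] using this
    have h3 : u.2.1 = 0 := by
      rw [h1, h2, zero_smul, zero_smul, zero_add, add_zero, smul_eq_zero] at hu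
      exact h.inj c hc ((hu.resolve_left ht.ne').trans (map_zero _).symm)
    exact Prod.ext h2 (Prod.ext h3 h1)
  obtain ⟨e, he, hae, heB, hs⟩ := ift_smooth (by simp [hE]; omega) hB hΨ ha hi
  obtain ⟨I, P, hI, hP, htI, hcP, hIP⟩ := isOpen_prod_iff.1 e.open_source _ _ hae
  obtain ⟨O₁, J, hO₁, hJ, hc₁, h0J, hOJ⟩ := isOpen_prod_iff.1 hP _ _ hcP
  have hbox : ∀ t ∈ I, ∀ z ∈ O₁, ∀ τ ∈ J, ((t, z, τ) : ℝ × Hm m × ℝ) ∈ e.source :=
    fun t ht z hz τ hτ => hIP ⟨ht, hOJ ⟨hz, hτ⟩⟩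
  have hO : O₁ ⊆ O := fun z hz => (heB (hbox _ htI z hz 0 h0J)).2.1
  have hsymm : ∀ t ∈ I, ∀ z ∈ O₁, e.symm (t • G z) = (t, z, 0) := fun t ht z hz => by
    have := e.left_inv (hbox t ht z hz 0 h0J)
    rw [he] at this
    simpa [Ψ] using this
  let W : Set E := (e.target ∩ e.symm ⁻¹' (I ×ˢ O₁ ×ˢ J)) ∩ (fun y => ‖y‖) ⁻¹' I
  have hn : ∀ t : ℝ, 0 < t → ∀ z ∈ O₁, ‖t • G z‖ = t := fun t ht z hz => by
    rw [norm_smul, h.unit z (hO hz), mul_one, Real.norm_of_nonneg ht.le]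
  have hf : ContDiffOn ℝ ∞ (fun y => (e.symm y).2.2) e.target := hs.snd.snd
  refine ⟨O₁, fun y => (e.symm y).2.2, W, hO₁, hc₁, hO, fun z hz z' hz' hzz => ?_,
    (e.isOpen_inter_preimage_symm (hI.prod (hO₁.prod hJ))).inter (hI.preimage continuous_norm),
    ⟨⟨?_, ?_⟩, ?_⟩, hf.mono fun y hy => hy.1.1, fun y hy hg => ?_, fun y hy => ⟨?_, fun h0 => ?_⟩⟩
  · have h1 := hsymm _ htI z hz
    rw [hzz, hsymm _ htI z' hz'] at h1
    exact (congrArg (fun q => q.2.1) h1).symm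
  · have := e.map_source hae
    rw [he] at this
    simpa [Ψ] using this
  · rw [mem_preimage, hsymm _ htI c hc₁]
    exact ⟨htI, hc₁, h0J⟩
  · rw [mem_preimage, hn _ ht c hc₁]
    exact htI
  · have hd : HasFDerivAt (fun y => (e.symm y).2.2) (fderiv ℝ (fun y => (e.symm y).2.2) y) y :=
      ((hf.contDiffAt (e.open_target.mem_nhds hy.1.1)).differentiableAt (by simp)).hasFDerivAt
    have h0 : fderiv ℝ (fun y => (e.symm y).2.2) y = 0 := by
      simpa [gradient] using hg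
    rw [h0] at hd
    set q := e.symm y with hq
    have hqs : q ∈ e.source := e.map_target hy.1.1
    have hy' : y = q.1 • G q.2.1 + q.2.2 • ν := by
      have := e.right_inv hy.1.1
      rw [he] at this
      exact this.symm
    have hl : HasDerivAt (fun τ : ℝ => q.1 • G q.2.1 + τ • ν) ν q.2.2 := by
      simpa using ((hasDerivAt_id q.2.2).smul_const ν).const_add (q.1 • G q.2.1)
    have h1 := HasFDerivAt.comp_hasDerivAt q.2.2 (hy' ▸ hd) hl
    have h2 : (fun τ : ℝ => τ) =ᶠ[𝓝 q.2.2]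
        ((fun y => (e.symm y).2.2) ∘ fun τ : ℝ => q.1 • G q.2.1 + τ • ν) := by
      have hc : Continuous fun τ : ℝ => ((q.1, q.2.1, τ) : ℝ × Hm m × ℝ) := by fun_prop
      filter_upwards [hc.continuousAt.preimage_mem_nhds (e.open_source.mem_nhds hqs)] with τ hτ
      have := e.left_inv hτ
      rw [he] at this
      exact (congrArg (fun q => q.2.2) this).symm
    have := (h1.congr_of_eventuallyEq h2).unique (hasDerivAt_id _)
    simp at this
  · rintro ⟨t, ht', _, ⟨z, hz, rfl⟩, rfl⟩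
    have h1 : t ∈ I := hn t ht' z hz ▸ hy.2
    simp only [hsymm t h1 z hz]
  · have h1 := e.right_inv hy.1.1
    rw [he] at h1
    have h2 := heB (e.map_target hy.1.1)
    refine ⟨(e.symm y).1, h2.1, _, ⟨(e.symm y).2.1, hy.1.2.2.1, rfl⟩, ?_⟩
    simpa [Ψ, h0] using h1.symm

end Crest.Agent.R246.J1
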