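import Crest.Agent.R246.J1.Calc

/-!
R246/J1/Lap: the coordinate formulas of the Prelude.  Statements FROZEN (owner helper2).
-/

set_option autoImplicit false
set_option linter.unusedSectionVars false

open MeasureTheory Metric Filter Topology Set Module
open scoped RealInnerProductSpace ENNReal ContDiff Real

noncomputable section

namespace Crest.Agent.R246.J1

variable {m : ℕ} {E : Type} [NormedAddCommGroup E] [InnerProductSpace ℝ E] [FiniteDimensional ℝ E]
variable {N : ℕ} {G : Hm m → Hm N} {O : Set (Hm m)} {c : Hm m}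

open Crest.GeometryTopology.CoordMetric

theorem lap_pderiv {G : Hm m → Hm N} {c : Hm m} (h : DifferentiableAt ℝ G c) (i : Fin m) (a : Fin N) :
    pderiv i (fun y => G y a) c = d1 G i c a := by
  have := ((EuclideanSpace.proj a : Hm N →L[ℝ] ℝ).hasFDerivAt.comp c h.hasFDerivAt).fderiv
  exact DFunLike.congr_fun this _

theorem Imm.pderiv_comp (h : Imm G O) (hc : c ∈ O) (i : Fin m) (a : Fin N) :
    pderiv i (fun y => G y a) c = d1 G i c a := by
  exact lap_pderiv (h.hasFDerivAt hc).differentiableAt i a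

theorem lap_congr {f g : Hm m → ℝ} (hO : IsOpen O) (hc : c ∈ O) (h : ∀ z ∈ O, f z = g z) (i : Fin m) :
    pderiv i f c = pderiv i g c := by
  rw [pderiv, pderiv, Filter.EventuallyEq.fderiv_eq (Eventually.mono (hO.mem_nhds hc) h)]

theorem Imm.pderiv_pderiv (h : Imm G O) (hc : c ∈ O) (i j : Fin m) (a : Fin N) :
    pderiv i (fun y => pderiv j (fun y => G y a) y) c = d2 G i j c a := by
  rw [lap_congr h.isOpen hc fun z hz => h.pderiv_comp hz j a]
  exact lap_pderiv (h.hasFDerivAt_d1 hc j).differentiableAt i a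

theorem lap_det {A : Hm m → Matrix (Fin m) (Fin m) ℝ} {c : Hm m}
    (h : ∀ i j, DifferentiableAt ℝ (fun y => A y i j) c) :
    DifferentiableAt ℝ (fun y => (A y).det) c := by
  simp only [Matrix.det_apply']
  exact DifferentiableAt.fun_sum fun σ _ => (differentiableAt_const _).mul
    (HasFDerivAt.finsetProd fun i _ => (h _ _).hasFDerivAt).differentiableAt

theorem Imm.det_pos (h : Imm G O) (hc : c ∈ O) : 0 < (gram G c).det :=
  (Matrix.posDef_gram_of_linearIndependent (h.fr hc).li).det_pos

/-- `√det g * g⁻¹ i j` is differentiable at `c` (`Matrix.inv_def`, `Matrix.adjugate_apply`,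
`Matrix.det_apply'`, `det > 0` by `Matrix.posDef_gram_of_linearIndependent`) -/
theorem Imm.diff_coef (h : Imm G O) (hc : c ∈ O) (i j : Fin m) :
    DifferentiableAt ℝ (fun y => √(gram G y).det * (gram G y)⁻¹ i j) c := by
  have h1 : ∀ i j, DifferentiableAt ℝ (fun y => gram G y i j) c := fun i j =>
    ((h.contDiffOn_gram i j).contDiffAt (h.isOpen.mem_nhds hc)).differentiableAt (by simp)
  have h2 := lap_det h1
  have h3 := (h.det_pos hc).ne'
  refine (h2.sqrt h3).mul ?_
  simp only [Matrix.inv_def, Matrix.smul_apply, Ring.inverse_eq_inv', smul_eq_mul,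
    Matrix.adjugate_apply]
  refine (h2.inv h3).mul (lap_det fun k l => ?_)
  simp only [Matrix.updateRow_apply]
  split_ifs
  · exact differentiableAt_const _
  · exact h1 k l

/-- Leibniz rule; `b j = (√det g)⁻¹ ∑ i, ∂ᵢ (√det g * g⁻¹ i j)` -/
theorem Imm.lb_expand (h : Imm G O) (hc : c ∈ O) {g : MetricField m} (hg : ∀ z ∈ O, g z = gram G z) :
    ∃ b : Fin m → ℝ, ∀ a, laplaceBeltrami g (fun y => G y a) c =
      ∑ i, ∑ j, (gram G c)⁻¹ i j * d2 G i j c a + ∑ j, b j * d1 G j c a := by
  refine ⟨fun j => 1 / √(gram G c).det *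
    ∑ i, pderiv i (fun y => √(gram G y).det * (gram G y)⁻¹ i j) c, fun a => ?_⟩
  have h1 : ∀ i, pderiv i (fun y => √(g y).det *
      ∑ j, inverseField g y i j * pderiv j (fun y => G y a) y) c =
      ∑ j, (√(gram G c).det * (gram G c)⁻¹ i j * d2 G i j c a +
        d1 G j c a * pderiv i (fun y => √(gram G y).det * (gram G y)⁻¹ i j) c) := fun i => by
    rw [lap_congr (g := fun y => ∑ j, (√(gram G y).det * (gram G y)⁻¹ i j) * d1 G j y a) h.isOpen hc
      fun z hz => by simp only [inverseField, hg z hz, h.pderiv_comp hz, Finset.mul_sum, mul_assoc]]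
    have hd : ∀ j, HasFDerivAt (fun y => d1 G j y a) _ c := fun j =>
      (EuclideanSpace.proj a : Hm N →L[ℝ] ℝ).hasFDerivAt.comp c (h.hasFDerivAt_d1 hc j)
    have := (HasFDerivAt.fun_sum (u := Finset.univ) fun j _ =>
      (h.diff_coef hc i j).hasFDerivAt.fun_mul (hd j)).fderiv
    rw [pderiv, this]
    simp [pderiv, d2, d1]
  have h2 : √(gram G c).det ≠ 0 := (Real.sqrt_pos.2 (h.det_pos hc)).ne'
  simp only [laplaceBeltrami, h1]
  simp only [hg c hc, Finset.sum_add_distrib, mul_add, Finset.mul_sum, Finset.sum_mul]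
  congr 1
  · exact Finset.sum_congr rfl fun i _ => Finset.sum_congr rfl fun j _ => by field_simp
  · rw [Finset.sum_comm]
    exact Finset.sum_congr rfl fun i _ => Finset.sum_congr rfl fun j _ => by ring

/-- multiply by `w a` and sum over `a` -/
theorem Imm.minAt (h : Imm G O) (hc : c ∈ O) {g : MetricField m} (hg : ∀ z ∈ O, g z = gram G z)
    (hl : ∀ a, laplaceBeltrami g (fun y => G y a) c + m * G c a = 0) : MinAt G c := by
  obtain ⟨b, hb⟩ := h.lb_expand hc hg
  have h1 : ∑ i, ∑ j, (gram G c)⁻¹ i j • d2 G i j c + ∑ j, b j • d1 G j c + (m : ℝ) • G c = 0 := by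
    ext a
    simpa [hb a] using hl a
  intro w hw
  have := congrArg (fun y => ⟪w, y⟫) h1
  simpa [inner_add_right, inner_sum, inner_smul_right, hw.1, hw.2] using this

/-- `fderiv_gram`, `d2_symm`: the bracket in `christoffel` is `2 ⟪d2 G i j, d1 G l⟫` -/
theorem Imm.christoffel_eq (h : Imm G O) (hc : c ∈ O) {g : MetricField m}
    (hg : ∀ z ∈ O, g z = gram G z) (k i j : Fin m) :
    christoffel g c k i j = ∑ l, (gram G c)⁻¹ k l * ⟪d2 G i j c, d1 G l c⟫ := by
  have h1 : ∀ k i j, pderiv k (fun y => g y i j) c =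
      ⟪d2 G k i c, d1 G j c⟫ + ⟪d2 G k j c, d1 G i c⟫ := fun k i j => by
    rw [lap_congr (g := fun y => gram G y i j) h.isOpen hc fun z hz => by rw [hg z hz], pderiv,
      h.fderiv_gram hc, real_inner_comm (d2 G k j c)]
  simp only [christoffel, h1, inverseField, hg c hc, Finset.mul_sum]
  refine Finset.sum_congr rfl fun l _ => ?_
  rw [h.d2_symm hc j i, h.d2_symm hc l i, h.d2_symm hc l j]
  ring

/-- `B = d2 G i j - ∑ Γ k • d1 G k + g i j • G` is orthogonal to `e`, `G`, `d1 G l`; `Fr.eq_zero` -/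
theorem Imm.tg_of_flat (h : Imm G O) (hN : N = m + 2) (hc : c ∈ O) {g : MetricField m}
    (hg : ∀ z ∈ O, g z = gram G z) {e : Hm N} (he : ‖e‖ = 1) (h0 : ∀ z ∈ O, ⟪e, G z⟫ = 0)
    (i j : Fin m) (a : Fin N) :
    pderiv i (fun y => pderiv j (fun y => G y a) y) c -
      ∑ k, christoffel g c k i j * pderiv k (fun y => G y a) c = -(g c i j * G c a) := by
  obtain ⟨h1, h2⟩ := h.perp_of_flat hc h0
  have hf := h.fr hc
  have hinv := Matrix.mul_nonsing_inv _ (Ne.isUnit (h.det_pos hc).ne')
  have hB : d2 G i j c - ∑ k, christoffel g c k i j • d1 G k c + gram G c i j • G c = 0 := by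
    refine hf.eq_zero (by simp [hN]) (by rintro rfl; simp at he) h1 ⟨?_, fun l => ?_⟩ ?_
    · rw [real_inner_comm]
      simp [inner_add_right, inner_sub_right, inner_sum, inner_smul_right, hf.orth, h.inner_d2 hc,
        h.unit c hc]
    · have h3 : ∑ k, christoffel g c k i j * ⟪d1 G l c, d1 G k c⟫ = ⟪d2 G i j c, d1 G l c⟫ := by
        have h4 : ∀ n, ∑ k, (gram G c)⁻¹ k n * ⟪d1 G l c, d1 G k c⟫ =
            (1 : Matrix (Fin m) (Fin m) ℝ) l n := fun n => by
          rw [← hinv, Matrix.mul_apply]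
          exact Finset.sum_congr rfl fun k _ => mul_comm _ _
        simp only [h.christoffel_eq hc hg, Finset.sum_mul]
        rw [Finset.sum_comm]
        simp only [mul_right_comm _ ⟪d2 G i j c, _⟫, ← Finset.sum_mul, h4]
        simp [Matrix.one_apply]
      have h5 : ⟪d1 G l c, G c⟫ = 0 := by rw [real_inner_comm]; exact hf.orth l
      rw [real_inner_comm]
      simp only [inner_add_right, inner_sub_right, inner_sum, inner_smul_right, h3, h5,
        real_inner_comm (d2 G i j c)]
      ring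
    · rw [real_inner_comm]
      simp [inner_add_right, inner_sub_right, inner_sum, inner_smul_right, h1.1, h1.2, h2]
  have := congrArg (fun y : Hm N => y a) hB
  simp only [h.pderiv_pderiv hc, h.pderiv_comp hc, hg c hc]
  refine eq_neg_of_add_eq_zero_left ?_
  simpa using this

end Crest.Agent.R246.J1
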