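import Crest.Agent.R246.J1.Defs

/-!
R246/J1/Lin: linear algebra of frames.  Statements FROZEN (owner helper2).
-/

set_option autoImplicit false
set_option linter.unusedSectionVars false

open MeasureTheory Metric Filter Topology Set Module
open scoped RealInnerProductSpace ENNReal ContDiff Real

noncomputable section

namespace Crest.Agent.R246.J1

variable {m : ℕ} {E : Type} [NormedAddCommGroup E] [InnerProductSpace ℝ E] [FiniteDimensional ℝ E]
variable {v : Fin m → E} {x : E}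

/-! ### part a -/

/-- the span of `x, v` has dimension `≤ m + 1`, so its orthogonal complement is nontrivial -/
theorem exists_pp (hE : finrank ℝ E = m + 2) (v : Fin m → E) (x : E) :
    ∃ ν : E, ‖ν‖ = 1 ∧ Pp v x ν := by
  let K : Submodule ℝ E := Submodule.span ℝ (range (Fin.cons x v : Fin (m + 1) → E))
  have h1 : finrank ℝ K ≤ m + 1 :=
    (finrank_range_le_card (R := ℝ) (Fin.cons x v : Fin (m + 1) → E)).trans_eq (Fintype.card_fin _)
  have h2 := K.finrank_add_finrank_orthogonal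
  have : Nontrivial Kᗮ := Module.nontrivial_of_finrank_pos (R := ℝ) (by omega)
  obtain ⟨ν, hν⟩ := exists_norm_eq Kᗮ (zero_le_one (α := ℝ))
  have h3 : ∀ j, ⟪(ν : E), (Fin.cons x v : Fin (m + 1) → E) j⟫ = 0 := fun j =>
    Submodule.inner_left_of_mem_orthogonal (K := K) (Submodule.subset_span (mem_range_self j)) ν.2
  exact ⟨ν, hν, h3 0, fun i => h3 i.succ⟩

/-- `ν, x, v` is a linearly independent family of `m + 2` vectors (`Fin.cons`, pair with `ν`, `x`),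
hence spans (`LinearIndependent.span_eq_top_of_card_eq_finrank'`) -/
theorem Fr.span (h : Fr v x) (hE : finrank ℝ E = m + 2) {ν : E} (hν : ν ≠ 0) (hp : Pp v x ν)
    (y : E) : ∃ (a b : ℝ) (c : Fin m → ℝ), y = a • ν + b • x + ∑ i, c i • v i := by
  have hli : LinearIndependent ℝ (Fin.cons ν (Fin.cons x v) : Fin (m + 2) → E) := by
    rw [Fintype.linearIndependent_iff]
    intro g hg
    simp only [Fin.sum_univ_succ, Fin.cons_zero, Fin.cons_succ] at hg
    have h0 : g 0 = 0 := by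
      have := congrArg (fun y => ⟪ν, y⟫) hg
      simpa [inner_add_right, inner_smul_right, inner_sum, hp.1, hp.2, hν] using this
    have h1 : g (Fin.succ 0) = 0 := by
      have := congrArg (fun y => ⟪x, y⟫) hg
      simpa [inner_add_right, inner_smul_right, inner_sum, h.orth, h0, h.unit] using this
    rw [h0, h1, zero_smul, zero_smul, zero_add, zero_add] at hg
    have h2 := Fintype.linearIndependent_iff.1 h.li _ hg
    intro j
    refine Fin.cases h0 (fun j => Fin.cases h1 (fun j => h2 j) j) j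
  have hs := hli.span_eq_top_of_card_eq_finrank' (by simp [hE])
  obtain ⟨g, hg⟩ := (Submodule.mem_span_range_iff_exists_fun ℝ).1 (hs ▸ Submodule.mem_top (x := y))
  simp only [Fin.sum_univ_succ, Fin.cons_zero, Fin.cons_succ] at hg
  exact ⟨_, _, _, hg.symm.trans (add_assoc _ _ _).symm⟩

theorem Fr.eq_zero (h : Fr v x) (hE : finrank ℝ E = m + 2) {ν : E} (hν : ν ≠ 0) (hp : Pp v x ν)
    {B : E} (hB : Pp v x B) (h0 : ⟪B, ν⟫ = 0) : B = 0 := by
  obtain ⟨a, b, c, hc⟩ := h.span hE hν hp B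
  have : ⟪B, a • ν + b • x + ∑ i, c i • v i⟫ = 0 := by
    simp [inner_add_right, inner_smul_right, inner_sum, hB.1, hB.2, h0]
  rw [← hc] at this
  exact inner_self_eq_zero.1 this

/-- `w' - ⟪w', w⟫ w = 0` by `eq_zero` -/
theorem Fr.pp_unique (h : Fr v x) (hE : finrank ℝ E = m + 2) {w w' : E} (hw : ‖w‖ = 1)
    (hw' : ‖w'‖ = 1) (hp : Pp v x w) (hp' : Pp v x w') : w' = w ∨ w' = -w := by
  have h0 : w ≠ 0 := by rintro rfl; simp at hw
  have h1 : w' - ⟪w', w⟫ • w = 0 := h.eq_zero hE h0 hp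
    ⟨by simp [inner_sub_left, inner_smul_left, hp.1, hp'.1],
      fun i => by simp [inner_sub_left, inner_smul_left, hp.2, hp'.2]⟩
    (by simp [inner_sub_left, inner_smul_left, hw])
  rw [sub_eq_zero] at h1
  have h2 : |⟪w', w⟫| = 1 := by
    have := congrArg norm h1
    rw [norm_smul, hw, hw', mul_one, Real.norm_eq_abs] at this
    exact this.symm
  rcases (abs_eq zero_le_one).1 h2 with h3 | h3
  · left; rw [h1, h3, one_smul]
  · right; rw [h1, h3, neg_one_smul]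

theorem Fr.det_ne (h : Fr v x) : (Matrix.gram ℝ v).det ≠ 0 :=
  Matrix.det_gram_ne_zero_iff_linearIndependent.2 h.li

theorem trc_rk (A : E →L[ℝ] E) (a ν : E) : trc (A ∘L rk a ν) = ⟪ν, A a⟫ := by
  have : ((A ∘L rk a ν : E →L[ℝ] E) : E →ₗ[ℝ] E) =
      ((innerSL ℝ ν : E →L[ℝ] ℝ) : E →ₗ[ℝ] ℝ).smulRight (A a) := by
    ext u
    simp [rk]
  rw [trc, this, LinearMap.trace_smulRight]
  simp

/-- `id = ∑ g⁻¹ i j • rk (v i) (v j) + rk x x + ‖ν‖⁻² • rk ν ν` (check on `Fr.span`), `trc_rk` -/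
theorem Fr.trace (h : Fr v x) (hE : finrank ℝ E = m + 2) {ν : E} (hν : ν ≠ 0) (hp : Pp v x ν)
    (A : E →L[ℝ] E) : ‖ν‖ ^ 2 * trc A =
      ‖ν‖ ^ 2 * (∑ i, ∑ j, (Matrix.gram ℝ v)⁻¹ i j * ⟪A (v i), v j⟫ + ⟪x, A x⟫) + ⟪ν, A ν⟫ := by
  have hn : ‖ν‖ ^ 2 ≠ 0 := pow_ne_zero _ (norm_ne_zero_iff.2 hν)
  have hinv := Matrix.nonsing_inv_mul _ (Ne.isUnit h.det_ne)
  set P : E →L[ℝ] E := ∑ i, ∑ j, (Matrix.gram ℝ v)⁻¹ i j • rk (v i) (v j) + rk x x +
    (‖ν‖ ^ 2)⁻¹ • rk ν ν with hP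
  have hPa : ∀ y, P y = ∑ i, (∑ j, (Matrix.gram ℝ v)⁻¹ i j * ⟪v j, y⟫) • v i + ⟪x, y⟫ • x +
      ((‖ν‖ ^ 2)⁻¹ * ⟪ν, y⟫) • ν := fun y => by
    simp [hP, rk, Finset.sum_smul, smul_smul]
  have e1 : ∀ j, ⟪v j, ν⟫ = 0 := fun j => by rw [real_inner_comm]; exact hp.2 j
  have e2 : ∀ j, ⟪v j, x⟫ = 0 := fun j => by rw [real_inner_comm]; exact h.orth j
  have e3 : ⟪x, ν⟫ = 0 := by rw [real_inner_comm]; exact hp.1
  have h1 : P ν = ν := by
    rw [hPa, real_inner_self_eq_norm_sq, inv_mul_cancel₀ hn]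
    simp [e1, e3]
  have h2 : P x = x := by
    rw [hPa, real_inner_self_eq_norm_sq, h.unit]
    simp [e2, hp.1]
  have h3 : ∀ k, P (v k) = v k := fun k => by
    have : ∀ i, ∑ j, (Matrix.gram ℝ v)⁻¹ i j * ⟪v j, v k⟫ = (1 : Matrix (Fin m) (Fin m) ℝ) i k :=
      fun i => by rw [← hinv, Matrix.mul_apply]; rfl
    rw [hPa]
    simp [this, h.orth, hp.2, Matrix.one_apply]
  have hid : A = A ∘L P := by
    ext y
    obtain ⟨a, b, c, rfl⟩ := h.span hE hν hp y
    simp only [ContinuousLinearMap.comp_apply, map_add, map_smul, map_sum, h1, h2, h3]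
  have ht : trc A = ∑ i, ∑ j, (Matrix.gram ℝ v)⁻¹ i j * trc (A ∘L rk (v i) (v j)) +
      trc (A ∘L rk x x) + (‖ν‖ ^ 2)⁻¹ * trc (A ∘L rk ν ν) := by
    conv_lhs => rw [hid, hP]
    simp [trc, ContinuousLinearMap.comp_finsetSum]
  rw [ht]
  simp only [trc_rk, real_inner_comm (A (v _))]
  field_simp

/-! ### part b -/

/-- differential of `(t, z) ↦ t • G z` -/
def cL (L : Hm m →L[ℝ] E) (x : E) (t : ℝ) : WithLp 2 (ℝ × Hm m) →L[ℝ] E :=
  ((ContinuousLinearMap.fst ℝ ℝ (Hm m)).smulRight x +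
    t • L ∘L ContinuousLinearMap.snd ℝ ℝ (Hm m)) ∘L
      (WithLp.prodContinuousLinearEquiv 2 ℝ ℝ (Hm m) : WithLp 2 (ℝ × Hm m) →L[ℝ] ℝ × Hm m)

theorem cL_apply (L : Hm m →L[ℝ] E) (x : E) (t : ℝ) (q : WithLp 2 (ℝ × Hm m)) :
    cL L x t q = q.fst • x + t • L q.snd := rfl

/-- pair with `x` -/
theorem cL_inj {L : Hm m →L[ℝ] E} (hL : Function.Injective L) (hx : ‖x‖ = 1)
    (ho : ∀ u, ⟪x, L u⟫ = 0) {t : ℝ} (ht : 0 < t) : Function.Injective (cL L x t) := by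
  refine (injective_iff_map_eq_zero _).2 fun q hq => ?_
  rw [cL_apply] at hq
  have h1 : q.fst = 0 := by
    have := congrArg (fun y => ⟪x, y⟫) hq
    simpa [inner_add_right, inner_smul_right, ho, hx] using this
  rw [h1, zero_smul, zero_add, smul_eq_zero] at hq
  have h2 : q.snd = 0 := hL ((hq.resolve_left ht.ne').trans (map_zero _).symm)
  exact (WithLp.ext_iff _).2 (Prod.ext h1 h2)

/-- `LinearMap.normDet_sq_eq_det_gram` with `OrthonormalBasis.prod` (index `Unit ⊕ Fin m` or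
`Fin 1 ⊕ Fin m`): the Gram matrix is `fromBlocks 1 0 0 (t² • gram)`, `Matrix.det_fromBlocks_zero₂₁` -/
theorem normDet_cL {L : Hm m →L[ℝ] E} (hx : ‖x‖ = 1) (ho : ∀ u, ⟪x, L u⟫ = 0) {t : ℝ} (ht : 0 < t) :
    LinearMap.normDet (cL L x t : WithLp 2 (ℝ × Hm m) →ₗ[ℝ] E) =
      t ^ m * LinearMap.normDet (L : Hm m →ₗ[ℝ] E) := by
  let b := EuclideanSpace.basisFun (Fin m) ℝ
  have h1 := LinearMap.normDet_sq_eq_det_gram (cL L x t : WithLp 2 (ℝ × Hm m) →ₗ[ℝ] E)
    ((OrthonormalBasis.singleton Unit ℝ).prod b)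
  have h2 := LinearMap.normDet_sq_eq_det_gram (L : Hm m →ₗ[ℝ] E) b
  have ho' : ∀ u, ⟪L u, x⟫ = 0 := fun u => by rw [real_inner_comm]; exact ho u
  have h3 : Matrix.gram ℝ (fun i => (cL L x t : WithLp 2 (ℝ × Hm m) →ₗ[ℝ] E)
      (((OrthonormalBasis.singleton Unit ℝ).prod b) i)) =
      Matrix.fromBlocks 1 0 0 (t ^ 2 • Matrix.gram ℝ fun i => (L : Hm m →ₗ[ℝ] E) (b i)) := by
    ext (i | i) (j | j) <;>
      simp [cL_apply, OrthonormalBasis.prod_apply, hx, inner_smul_left, inner_smul_right, ho, ho']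
    ring
  rw [h3, Matrix.det_fromBlocks_zero₂₁, Matrix.det_one, one_mul, Matrix.det_smul, ← h2] at h1
  refine (sq_eq_sq₀ (LinearMap.normDet_nonneg _)
    (mul_nonneg (pow_nonneg ht.le _) (LinearMap.normDet_nonneg _))).1 ?_
  simp only [RCLike.ofReal_real_eq_id, id, Fintype.card_fin] at h1
  rw [h1]
  ring

end Crest.Agent.R246.J1
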