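import Crest.Agent.R246.J1.Sheet
import Crest.Agent.R246.G1.Stat

/-!
R246/J1/Loc: local facts on smooth minimal hypersurfaces `{f = 0}` (adapted from `G1/Chart`, `G1/Stat`).
-/

set_option autoImplicit false
set_option linter.unusedSectionVars false

open MeasureTheory Metric Filter Topology Set Module
open scoped RealInnerProductSpace ENNReal ContDiff Real Manifold

noncomputable section

namespace Crest.Agent.R246.J1

open G1

variable {E : Type} [NormedAddCommGroup E] [InnerProductSpace ℝ E] [FiniteDimensional ℝ E]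
  {S : Set E} {f : E → ℝ}

theorem contDiffAt_un {y : E} (hf : ContDiffAt ℝ ∞ f y) (hne : gradient f y ≠ 0) :
    ContDiffAt ℝ ∞ (un f) y :=
  (((contDiffAt_gradient hf).norm ℝ hne).inv (norm_ne_zero_iff.2 hne)).smul (contDiffAt_gradient hf)

theorem norm_un {y : E} (hne : gradient f y ≠ 0) : ‖un f y‖ = 1 := norm_smul_inv_norm (𝕜 := ℝ) hne

theorem smul_un {y : E} (hne : gradient f y ≠ 0) : ‖gradient f y‖ • un f y = gradient f y :=
  smul_inv_smul₀ (norm_ne_zero_iff.2 hne) _

theorem fderiv_un {y : E} (hf : ContDiffAt ℝ ∞ f y) (hne : gradient f y ≠ 0) (v : E) :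
    fderiv ℝ (un f) y v = ‖gradient f y‖⁻¹ • (hess f y v - ⟪un f y, hess f y v⟫ • un f y) := by
  have hS := ((contDiffAt_un hf hne).differentiableAt (by simp)).hasFDerivAt
  have hn := (((contDiffAt_gradient hf).norm ℝ hne).differentiableAt (by simp)).hasFDerivAt
  have hev : ∀ᶠ z in 𝓝 y, gradient f z ≠ 0 :=
    (contDiffAt_gradient hf).continuousAt.eventually_ne hne
  have h1 := DFunLike.congr_fun (((hn.smul hS).congr_of_eventuallyEq
    (hev.mono fun z hz => (smul_un hz).symm)).unique (calc_grad hf)) v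
  have h2 := calc_inner hS hS (k := 1)
    (hev.mono fun z hz => by rw [real_inner_self_eq_norm_sq, norm_un hz, one_pow]) v
  rw [real_inner_comm (un f y)] at h2
  have h3 : ⟪un f y, fderiv ℝ (un f) y v⟫ = 0 := by linarith
  simp only [_root_.add_apply, _root_.smul_apply,
    ContinuousLinearMap.smulRight_apply] at h1
  rw [← h1, inner_add_right, inner_smul_right, inner_smul_right, h3, real_inner_self_eq_norm_sq,
    norm_un hne, mul_zero, zero_add, one_pow, mul_one, add_sub_cancel_right,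
    inv_smul_smul₀ (norm_ne_zero_iff.2 hne)]

/-- tangential part of `X` divided by `⟪ν, e⟫` -/
def tv (f : E → ℝ) (e : E) (X : E → E) (y : E) : E :=
  ⟪un f y, e⟫⁻¹ • (X y - ⟪un f y, X y⟫ • un f y)

theorem tv_div {X : E → E} {y e : E} (hf : ContDiffAt ℝ ∞ f y) (hne : gradient f y ≠ 0)
    (hl : ‖gradient f y‖ ^ 2 * lap f y = ⟪gradient f y, hess f y (gradient f y)⟫)
    (ha : ⟪un f y, e⟫ ≠ 0) (hX : DifferentiableAt ℝ X y) :
    trc (fderiv ℝ (tv f e X) y) - ⟪un f y, e⟫⁻¹ * ⟪un f y, fderiv ℝ (tv f e X) y e⟫ =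
      ⟪un f y, e⟫⁻¹ * divT X (y, un f y) := by
  have hS := ((contDiffAt_un hf hne).differentiableAt (by simp)).hasFDerivAt
  have hn0 : ‖gradient f y‖ ≠ 0 := norm_ne_zero_iff.2 hne
  have hν : ⟪un f y, un f y⟫ = 1 := by rw [real_inner_self_eq_norm_sq, norm_un hne, one_pow]
  have hSv := fderiv_un hf hne
  have htr : trc (fderiv ℝ (un f) y) = 0 := by
    have e1 : fderiv ℝ (un f) y = ‖gradient f y‖⁻¹ •
        (hess f y - (innerSL ℝ (un f y) ∘L hess f y).smulRight (un f y)) := by
      ext v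
      simp [hSv]
    have e2 : lap f y = ⟪un f y, hess f y (un f y)⟫ := by
      refine mul_left_cancel₀ (pow_ne_zero 2 hn0) ?_
      rw [hl, un, map_smul, real_inner_smul_left, real_inner_smul_right]
      field_simp
    rw [e1, trc_smul, trc_sub, trc_smulRight]
    change _ * (lap f y - ⟪un f y, hess f y (un f y)⟫) = 0
    rw [e2, sub_self, mul_zero]
  have h1 := hS.inner ℝ hX.hasFDerivAt
  have h2 := (hasDerivAt_inv ha).comp_hasFDerivAt y (hS.inner ℝ (hasFDerivAt_const e y))
  have h3 := (h2.smul (hX.hasFDerivAt.sub (h1.smul hS))).fderiv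
  have hs1 : ⟪hess f y (X y), e⟫ = ⟪hess f y e, X y⟫ := by rw [hess_symm hf, real_inner_comm]
  have hs2 : ⟪un f y, hess f y (X y)⟫ = ⟪hess f y (un f y), X y⟫ := (hess_symm hf _ _).symm
  have hs3 : ⟪un f y, hess f y e⟫ = ⟪hess f y (un f y), e⟫ := (hess_symm hf _ _).symm
  change fderiv ℝ (tv f e X) y = _ at h3
  rw [h3]
  simp only [divT, trc_add, trc_sub, trc_smul, trc_smulRight, htr, _root_.add_apply,
    _root_.sub_apply, _root_.smul_apply, ContinuousLinearMap.smulRight_apply,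
    ContinuousLinearMap.comp_apply, ContinuousLinearMap.prod_apply, fderivInnerCLM_apply,
    inner_add_right, inner_sub_right, real_inner_smul_right, Pi.sub_apply, Pi.smul_apply',
    map_sub, map_smul, hSv, hν, hs1, hs2, hs3, inner_zero_right, _root_.zero_apply,
    smul_eq_mul, Function.comp, inner_sub_left, real_inner_smul_left]
  field_simp
  ring

theorem contDiffAt_tv {X : E → E} {y e : E} (hf : ContDiffAt ℝ ∞ f y) (hne : gradient f y ≠ 0)
    (ha : ⟪un f y, e⟫ ≠ 0) (hX : ContDiffAt ℝ 1 X y) : ContDiffAt ℝ 1 (tv f e X) y := by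
  have hg : ContDiffAt ℝ 1 (un f) y := (contDiffAt_un hf hne).of_le (by simp)
  exact ((hg.inner ℝ contDiffAt_const).inv ha).smul (hX.sub ((hg.inner ℝ hX).smul hg))

/-- `S ∩ N` is the graph `G '' O` over `e^⊥` -/
structure Ch (S : Set E) (f : E → ℝ) (e : E) (G : (ℝ ∙ e)ᗮ → E) (O : Set (ℝ ∙ e)ᗮ) (N : Set E) :
    Prop where
  he : ‖e‖ = 1
  openO : IsOpen O
  openN : IsOpen N
  smooth : ∀ y ∈ N, ContDiffAt ℝ ∞ f y
  ne : ∀ y ∈ N, gradient f y ≠ 0
  zero : ∀ y ∈ N, y ∈ S ↔ f y = 0
  min : ∀ y ∈ N, y ∈ S → ‖gradient f y‖ ^ 2 * lap f y = ⟪gradient f y, hess f y (gradient f y)⟫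
  half : ∀ y ∈ N, 1 / 2 ≤ ⟪un f y, e⟫
  c1 : ContDiffOn ℝ 1 G O
  proj : ∀ x ∈ O, pe e (G x) = x
  image : G '' O = S ∩ N

theorem exists_ch {p : E} {U : Set E} (h : LocAt S p f U) :
    ∃ G O N, Ch S f (un f p) G O N ∧ p ∈ N ∧ N ⊆ U := by
  set e := un f p with he
  have hp := h.grad_ne p h.mem
  have hen : ‖e‖ = 1 := norm_un hp
  have hat : ∀ y ∈ U, ContDiffAt ℝ ∞ f y := fun y hy => h.smooth.contDiffAt (h.isOpen.mem_nhds hy)
  have hc : ContinuousOn (fun y => ⟪un f y, e⟫) U := fun y hy =>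
    ((contDiffAt_un (hat y hy) (h.grad_ne y hy)).continuousAt.inner
      continuousAt_const).continuousWithinAt
  have hU := hc.isOpen_inter_preimage h.isOpen (isOpen_Ioi (a := 1 / 2))
  have hee : ⟪e, e⟫ = 1 := by rw [real_inner_self_eq_norm_sq, hen, one_pow]
  let Ψ : E → E := fun y => y + (f y - ⟪e, y⟫) • e
  have hin : ∀ y, ⟪e, Ψ y⟫ = f y := fun y => by
    simp only [Ψ, inner_add_right, inner_smul_right, hee]
    ring
  obtain ⟨P, hP, hps, hsub, hs⟩ := ift_smooth (Ψ := Ψ) rfl hU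
    (contDiffOn_id.add (((h.smooth.mono inter_subset_left).sub
      (contDiffOn_const.inner ℝ contDiffOn_id)).smul contDiffOn_const))
    (a := p) ⟨h.mem, by change 1 / 2 < ⟪e, e⟫; rw [hee]; norm_num⟩ (by
      have h1 := (hasFDerivAt_id p).add ((((hat p h.mem).differentiableAt (by simp)).hasFDerivAt.sub
        (innerSL ℝ e).hasFDerivAt).smul_const e)
      rw [show fderiv ℝ Ψ p = _ from h1.fderiv]
      refine (injective_iff_map_eq_zero _).2 fun v hv => ?_
      have h2 : v + (‖gradient f p‖ * ⟪e, v⟫ - ⟪e, v⟫) • e = 0 := by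
        rw [← real_inner_smul_left, smul_un hp, ← fderiv_eq_inner]
        exact hv
      have h3 : ‖gradient f p‖ * ⟪e, v⟫ = 0 := by
        have := congrArg (fun y => ⟪e, y⟫) h2
        simp only [inner_add_right, inner_smul_right, hee, inner_zero_right] at this
        linarith
      rw [(mul_eq_zero.1 h3).resolve_left (norm_ne_zero_iff.2 hp)] at h2
      simpa using h2)
  have hPG : ∀ x : (ℝ ∙ e)ᗮ, (x : E) ∈ P.target → Ψ (P.symm x) = x := fun x hx =>
    hP ▸ P.right_inv hx
  have hGC : ∀ x : (ℝ ∙ e)ᗮ, (x : E) ∈ P.target → f (P.symm x) = 0 := fun x hx => by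
    rw [← hin, hPG x hx, inner_coe x]
  refine ⟨fun x => P.symm x, Subtype.val ⁻¹' P.target, P.source,
    { he := hen
      openO := P.open_target.preimage continuous_subtype_val
      openN := P.open_source
      smooth := fun y hy => hat y (hsub hy).1
      ne := fun y hy => h.grad_ne y (hsub hy).1
      zero := fun y hy => h.zero_iff y (hsub hy).1
      min := fun y hy => h.minimal y (hsub hy).1
      half := fun y hy => le_of_lt (hsub hy).2
      c1 := (hs.of_le (by simp)).comp (ℝ ∙ e)ᗮ.subtypeL.contDiff.contDiffOn fun x hx => hx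
      proj := fun x hx => ?_
      image := ?_ }, hps, fun y hy => (hsub hy).1⟩
  · refine Subtype.ext ?_
    rw [coe_pe hen]
    conv_rhs => rw [← hPG x hx]
    simp only [Ψ, hGC x hx, zero_add, neg_smul, sub_eq_add_neg]
  · ext y
    constructor
    · rintro ⟨x, hx, rfl⟩
      exact ⟨(h.zero_iff _ (hsub (P.map_target hx)).1).2 (hGC x hx), P.map_target hx⟩
    · rintro ⟨hyC, hys⟩
      have hmem : Ψ y ∈ (ℝ ∙ e)ᗮ := Submodule.mem_orthogonal_singleton_iff_inner_right.2
        (by rw [hin]; exact (h.zero_iff y (hsub hys).1).1 hyC)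
      have h1 := P.map_source hys
      have h2 := P.left_inv hys
      rw [hP] at h1 h2
      exact ⟨⟨Ψ y, hmem⟩, h1, h2⟩

namespace Ch

variable {e : E} {G : (ℝ ∙ e)ᗮ → E} {O : Set (ℝ ∙ e)ᗮ} {N : Set E}

theorem mem (hc : Ch S f e G O N) {x : (ℝ ∙ e)ᗮ} (hx : x ∈ O) : G x ∈ S ∧ G x ∈ N := by
  have : G x ∈ S ∩ N := hc.image ▸ mem_image_of_mem G hx
  exact this

theorem inv (hc : Ch S f e G O N) {y : E} (hy : y ∈ S) (hN : y ∈ N) :
    pe e y ∈ O ∧ G (pe e y) = y := by
  obtain ⟨x, hx, rfl⟩ : y ∈ G '' O := hc.image ▸ ⟨hy, hN⟩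
  rw [hc.proj x hx]
  exact ⟨hx, rfl⟩

theorem pos (hc : Ch S f e G O N) {y : E} (hN : y ∈ N) : 0 < ⟪un f y, e⟫ :=
  lt_of_lt_of_le (by norm_num) (hc.half y hN)

theorem hasFDerivAt (hc : Ch S f e G O N) {x : (ℝ ∙ e)ᗮ} (hx : x ∈ O) :
    HasFDerivAt G (gr e (un f (G x)) ∘L (ℝ ∙ e)ᗮ.subtypeL) x := by
  have hG := ((hc.c1.contDiffAt (hc.openO.mem_nhds hx)).differentiableAt one_ne_zero).hasFDerivAt
  have h1 : pe e ∘L fderiv ℝ G x = ContinuousLinearMap.id ℝ _ := by
    refine ((pe e).hasFDerivAt.comp x hG).unique ((hasFDerivAt_id x).congr_of_eventuallyEq ?_)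
    filter_upwards [hc.openO.mem_nhds hx] with x' hx' using hc.proj x' hx'
  have h2 : fderiv ℝ f (G x) ∘L fderiv ℝ G x = 0 := by
    refine (((hc.smooth _ (hc.mem hx).2).differentiableAt (by simp)).hasFDerivAt.comp x hG).unique
      ((hasFDerivAt_const (0 : ℝ) x).congr_of_eventuallyEq ?_)
    filter_upwards [hc.openO.mem_nhds hx] with x' hx' using (hc.zero _ (hc.mem hx').2).1 (hc.mem hx').1
  refine hG.congr_fderiv (ContinuousLinearMap.ext fun u => ?_)
  have h3 : fderiv ℝ G x u - ⟪e, fderiv ℝ G x u⟫ • e = u := by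
    rw [← coe_pe hc.he]
    exact congrArg Subtype.val (congrArg (fun A => A u) h1)
  have h4 : ⟪un f (G x), fderiv ℝ G x u⟫ = 0 := by
    rw [un, real_inner_smul_left, ← fderiv_eq_inner]
    exact mul_eq_zero_of_right _ (congrArg (fun A => A u) h2)
  have h5 := (hc.pos (hc.mem hx).2).ne'
  change _ = gr e _ u
  rw [gr_apply, ← h3, inner_sub_right, h4, real_inner_smul_right, sub_sub, ← add_smul]
  have : ⟪e, fderiv ℝ G x u⟫ + ⟪un f (G x), e⟫⁻¹ *
    (0 - ⟪e, fderiv ℝ G x u⟫ * ⟪un f (G x), e⟫) = 0 := by field_simp; ring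
  rw [this, zero_smul, sub_zero]

theorem contA (hc : Ch S f e G O N) : ContinuousOn (fun x => ⟪un f (G x), e⟫⁻¹) O := by
  intro x hx
  refine ContinuousWithinAt.inv₀ ?_ (hc.pos (hc.mem hx).2).ne'
  exact ((contDiffAt_un (hc.smooth _ (hc.mem hx).2) (hc.ne _ (hc.mem hx).2)
    ).continuousAt.comp_continuousWithinAt (hc.c1.continuousOn x hx)).inner continuousWithinAt_const

theorem inv_le_two (hc : Ch S f e G O N) {y : E} (hN : y ∈ N) : ⟪un f y, e⟫⁻¹ ≤ 2 := by
  rw [inv_le_comm₀ (hc.pos hN) two_pos]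
  simpa using hc.half y hN

variable [MeasurableSpace E] [BorelSpace E] {d : ℕ}

theorem integral_eq (hE : finrank ℝ E = d + 1) (hc : Ch S f e G O N) {φ : E → ℝ}
    (hφ : Measurable φ) : ∫ y, φ y ∂ar d (S ∩ N) = ∫ x in O, ⟪un f (G x), e⟫⁻¹ * φ (G x) := by
  have hinj : InjOn G O := fun x hx x' hx' hxx => by rw [← hc.proj x hx, hxx, hc.proj x' hx']
  have hD : ∀ x ∈ O, LinearMap.normDet (fderiv ℝ G x : (ℝ ∙ e)ᗮ →ₗ[ℝ] E) = ⟪un f (G x), e⟫⁻¹ :=
    fun x hx => by
      rw [(hc.hasFDerivAt hx).fderiv,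
        normDet_gr hc.he (norm_un (hc.ne _ (hc.mem hx).2)) (hc.pos (hc.mem hx).2)]
  have h1 := area_map hc.openO hc.c1 hinj (fun x hx => LinearMap.ker_eq_bot.1 (by
    by_contra h0
    exact (inv_pos.2 (hc.pos (hc.mem hx).2)).ne'
      ((hD x hx).symm.trans (LinearMap.normDet_eq_zero_iff_ker_ne_bot.2 h0)))) Subset.rfl
    hc.openO.measurableSet
  rw [finrank_orth' hE hc.he, hc.image] at h1
  rw [ar, h1, integral_map ((hc.c1.continuousOn.aemeasurable hc.openO.measurableSet).mono_ac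
    (withDensity_absolutelyContinuous _ _)) hφ.aestronglyMeasurable,
    integral_withDensity_eq_integral_toReal_smul (measurable_normDet_fderiv G)
      (Eventually.of_forall fun _ => ENNReal.ofReal_lt_top)]
  refine setIntegral_congr_fun hc.openO.measurableSet fun x hx => ?_
  simp only [hD x hx, ENNReal.toReal_ofReal (inv_pos.2 (hc.pos (hc.mem hx).2)).le, smul_eq_mul]

theorem stat (hE : finrank ℝ E = d + 1) (hc : Ch S f e G O N) {X : E → E} (hX : ContDiff ℝ 1 X)
    (hK : HasCompactSupport X) (hs : tsupport X ⊆ N) :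
    ∫ y, divT X (y, un f y) ∂ar d (S ∩ N) = 0 := by
  set Y : (ℝ ∙ e)ᗮ → (ℝ ∙ e)ᗮ := O.indicator fun x => pe e (tv f e X (G x)) with hY
  set K := pe e '' (tsupport X ∩ f ⁻¹' {0})
  have hKc : IsCompact K := (hK.isCompact.of_isClosed_subset
    (ContinuousOn.preimage_isClosed_of_isClosed
      (fun y hy => (hc.smooth y (hs hy)).continuousAt.continuousWithinAt) (isClosed_tsupport X)
      isClosed_singleton) inter_subset_left).image (pe e).continuous
  have hKO : K ⊆ O := by
    rintro _ ⟨y, hy, rfl⟩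
    exact (hc.inv ((hc.zero y (hs hy.1)).2 hy.2) (hs hy.1)).1
  have hY0 : ∀ x, x ∉ K → Y x = 0 := by
    intro x hx
    refine indicator_apply_eq_zero.2 fun hxO => ?_
    have : X (G x) = 0 := image_eq_zero_of_notMem_tsupport fun h =>
      hx ⟨G x, ⟨h, (hc.zero _ (hc.mem hxO).2).1 (hc.mem hxO).1⟩, hc.proj x hxO⟩
    simp [tv, this]
  have hY1 : ∀ x, x ∉ K → Y =ᶠ[𝓝 x] fun _ => 0 := fun x hx =>
    (hKc.isClosed.isOpen_compl.eventually_mem hx).mono hY0
  have hY2 : ∀ x ∈ O, Y =ᶠ[𝓝 x] fun x => pe e (tv f e X (G x)) := fun x hx =>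
    (hc.openO.eventually_mem hx).mono fun x' hx' => indicator_of_mem hx' _
  have htw : ∀ x ∈ O, ContDiffAt ℝ 1 (tv f e X) (G x) := fun x hx =>
    contDiffAt_tv (hc.smooth _ (hc.mem hx).2) (hc.ne _ (hc.mem hx).2) (hc.pos (hc.mem hx).2).ne'
      hX.contDiffAt
  have hYs : ContDiff ℝ 1 Y := contDiff_iff_contDiffAt.2 fun x => by
    by_cases hx : x ∈ O
    · exact ((pe e).contDiff.contDiffAt.comp x ((htw x hx).comp x
        (hc.c1.contDiffAt (hc.openO.mem_nhds hx)))).congr_of_eventuallyEq (hY2 x hx)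
    · exact contDiffAt_const.congr_of_eventuallyEq (hY1 x fun h => hx (hKO h))
  obtain ⟨-, hz⟩ := integral_div hYs (HasCompactSupport.intro hKc hY0)
  have hA : ∀ x ∈ O, trc (fderiv ℝ Y x) = ⟪un f (G x), e⟫⁻¹ * divT X (G x, un f (G x)) := by
    intro x hx
    have h1 := (pe e).hasFDerivAt.comp x
      (((htw x hx).differentiableAt one_ne_zero).hasFDerivAt.comp x (hc.hasFDerivAt hx))
    have hN := (hc.mem hx).2
    rw [(h1.congr_of_eventuallyEq (hY2 x hx)).fderiv, trc_graph hc.he (hc.pos hN).ne',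
      tv_div (hc.smooth _ hN) (hc.ne _ hN) (hc.min _ hN (hc.mem hx).1) (hc.pos hN).ne'
        (hX.differentiable one_ne_zero _)]
  rw [hc.integral_eq hE (φ := fun y => divT X (y, un f y))
    ((measurable_divT X).comp (measurable_id.prodMk (measurable_un f))),
    ← setIntegral_congr_fun hc.openO.measurableSet hA,
    setIntegral_eq_integral_of_forall_compl_eq_zero, hz]
  intro x hx
  rw [(hY1 x fun h => hx (hKO h)).fderiv_eq]
  simp [trc]

theorem dens (hE : finrank ℝ E = d + 1) (hc : Ch S f e G O N) {p : E} (hp : p ∈ S) (hN : p ∈ N)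
    (he : un f p = e) : Tendsto (th d (ar d (S ∩ N)) p) (𝓝[>] 0) (𝓝 1) := by
  obtain ⟨hx, hG⟩ := hc.inv hp hN
  have hr := finrank_orth' hE hc.he
  have hee : ⟪e, e⟫ = 1 := by rw [real_inner_self_eq_norm_sq, hc.he, one_pow]
  let Φ : ℝ → (ℝ ∙ e)ᗮ → ℝ := fun r =>
    O.indicator fun x => ⟪un f (G x), e⟫⁻¹ * gk d 0 1 (r⁻¹ • (G x - p))
  have hΦ : ∀ r, AEStronglyMeasurable (Φ r) := fun r =>
    (aestronglyMeasurable_indicator_iff hc.openO.measurableSet).2
      ((hc.contA.mul ((continuous_gk d 0 1).comp_continuousOn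
        ((hc.c1.continuousOn.sub continuousOn_const).const_smul _))).aestronglyMeasurable
        hc.openO.measurableSet)
  have h1 : ∀ r, 0 < r → th d (ar d (S ∩ N)) p r = ∫ u, Φ r (pe e p + r • u) := fun r hr0 => by
    rw [th, hc.integral_eq hE (continuous_gk d p r).measurable,
      Measure.integral_comp_smul_of_nonneg volume (fun x => Φ r (pe e p + x)) r (hR := hr0.le),
      integral_add_left_eq_self, integral_indicator hc.openO.measurableSet, hr, smul_eq_mul,
      ← integral_const_mul]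
    refine integral_congr_ae (Eventually.of_forall fun x => ?_)
    simp only [gk, sub_zero, norm_smul, norm_inv, Real.norm_of_nonneg hr0.le, mul_pow, mul_inv, inv_pow]
    rw [show -((r ^ 2)⁻¹ * ‖G x - p‖ ^ 2) / (2 * 1 ^ 2) = -‖G x - p‖ ^ 2 / (2 * r ^ 2) by ring]
    ring
  have h2 := tendsto_integral_filter_of_dominated_convergence (μ := volume) (l := 𝓝[>] (0 : ℝ))
    (F := fun r u => Φ r (pe e p + r • u)) (f := fun u => gk d 0 1 u) (fun u => 2 * gk d 0 1 u)
    (eventually_mem_nhdsWithin.mono fun r hr0 => ?_) (eventually_mem_nhdsWithin.mono fun r hr0 =>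
      Eventually.of_forall fun u => ?_) ((integrable_gk d 0 one_pos).const_mul 2)
    (Eventually.of_forall fun u => ?_)
  · have h3 := integral_gk (0 : (ℝ ∙ e)ᗮ) one_pos
    rw [hr] at h3
    rw [h3] at h2
    exact h2.congr' (eventually_mem_nhdsWithin.mono fun r hr0 => (h1 r hr0).symm)
  · exact (hΦ r).comp_quasiMeasurePreserving ((measurePreserving_add_left volume _
      ).quasiMeasurePreserving.comp (Measure.quasiMeasurePreserving_smul volume (ne_of_gt hr0)))
  · have hg := gk_pos d (0 : (ℝ ∙ e)ᗮ) one_pos u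
    by_cases hO : pe e p + r • u ∈ O
    swap
    · simp only [Φ, indicator_of_notMem hO, norm_zero]
      positivity
    have hm := (hc.mem hO).2
    have hg' := gk_pos d (0 : E) one_pos (r⁻¹ • (G (pe e p + r • u) - p))
    simp only [Φ, indicator_of_mem hO]
    rw [Real.norm_of_nonneg (mul_pos (inv_pos.2 (hc.pos hm)) hg').le]
    refine mul_le_mul (hc.inv_le_two hm) ?_ hg'.le zero_le_two
    have h4 := norm_pe_le e (r⁻¹ • (G (pe e p + r • u) - p))
    rw [map_smul, map_sub, hc.proj _ hO, add_sub_cancel_left, inv_smul_smul₀ (ne_of_gt hr0)] at h4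
    simp only [gk, sub_zero]
    gcongr
  · have hl : HasDerivAt (fun r : ℝ => pe e p + r • u) u 0 := by
      simpa using ((hasDerivAt_id (0 : ℝ)).smul_const u).const_add (pe e p)
    have ht : Tendsto (fun r : ℝ => pe e p + r • u) (𝓝[>] 0) (𝓝 (pe e p)) := by
      simpa using hl.continuousAt.tendsto.mono_left nhdsWithin_le_nhds
    have hD := (HasFDerivAt.comp_hasDerivAt_of_eq (0 : ℝ) (hc.hasFDerivAt hx) hl
      (by simp)).tendsto_slope_zero_right
    have ha := (hc.contA.continuousAt (hc.openO.mem_nhds hx)).tendsto.comp ht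
    simp only [hG, he, hee, inv_one, Function.comp, zero_add, zero_smul, add_zero,
      ContinuousLinearMap.comp_apply, gr_apply, Submodule.subtypeL_apply, inner_coe, mul_zero,
      sub_zero] at hD ha
    have h5 := ha.mul (((continuous_gk d 0 1).tendsto _).comp hD)
    rw [one_mul] at h5
    exact h5.congr' ((ht.eventually (hc.openO.mem_nhds hx)).mono fun r hr0 =>
      (indicator_of_mem hr0 _).symm)

end Ch

variable [MeasurableSpace E] [BorelSpace E]

/-- local stationarity and density one -/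
theorem loc_stat {d : ℕ} (hE : finrank ℝ E = d + 1) {p : E} {U : Set E} (h : LocAt S p f U)
    (hp : p ∈ S) : ∃ O, IsOpen O ∧ p ∈ O ∧ O ⊆ U ∧
      (∀ X : E → E, ContDiff ℝ 1 X → HasCompactSupport X → tsupport X ⊆ O →
        ∫ y, divT X (y, un f y) ∂ar d (S ∩ O) = 0) ∧
      Tendsto (th d (ar d (S ∩ O)) p) (𝓝[>] 0) (𝓝 1) := by
  obtain ⟨G, O, N, hc, hN, hU⟩ := exists_ch h
  exact ⟨N, hc.openN, hN, hU, fun X => hc.stat hE, hc.dens hE hp hN rfl⟩

theorem continuous_divT {X : E → E} (hX : ContDiff ℝ 1 X) : Continuous (divT X) :=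
  have h := (hX.continuous_fderiv one_ne_zero).comp (continuous_fst (X := E) (Y := E))
  (continuous_trc.comp h).sub (continuous_snd.inner (h.clm_apply continuous_snd))

section glob

variable {V : Measure (E × E)} (hu : ∀ᵐ z ∂V, ‖z.2‖ = 1)
  (hi : ∀ R, Integrable (fun z : E × E => (closedBall 0 R).indicator (fun y => 1 + ‖y‖⁻¹) z.1) V)
include hu hi

/-- continuous functions with compact support in the base, also divided by `‖y‖` -/
theorem integrable_base {g : E × E → ℝ} (hg : Continuous g) {K : Set E} (hK : IsCompact K)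
    (h0 : ∀ z : E × E, z.1 ∉ K → g z = 0) :
    Integrable g V ∧ Integrable (fun z => g z / ‖z.1‖) V := by
  obtain ⟨R, hR⟩ := hK.isBounded.subset_closedBall 0
  obtain ⟨C, hC⟩ := (hK.prod (isCompact_sphere (0 : E) 1)).exists_bound_of_continuousOn hg.continuousOn
  have key : ∀ᵐ z ∂V, ∀ t, 0 ≤ t → t ≤ 1 + ‖z.1‖⁻¹ →
      ‖g z * t‖ ≤ |C| * (closedBall 0 R).indicator (fun y => 1 + ‖y‖⁻¹) z.1 :=
    hu.mono fun z hz t ht ht' => by
      by_cases hzK : z.1 ∈ K
      · rw [indicator_of_mem (hR hzK), norm_mul, Real.norm_of_nonneg ht]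
        exact mul_le_mul ((hC z ⟨hzK, by simpa using hz⟩).trans (le_abs_self C)) ht' ht (abs_nonneg C)
      · rw [h0 z hzK, zero_mul, norm_zero]
        exact mul_nonneg (abs_nonneg C) (indicator_nonneg (fun y _ => by positivity) _)
  refine ⟨((hi R).const_mul |C|).mono' hg.aestronglyMeasurable (key.mono fun z hz => ?_),
    ((hi R).const_mul |C|).mono' (hg.measurable.div measurable_fst.norm).aestronglyMeasurable
      (key.mono fun z hz => ?_)⟩
  · simpa using hz 1 zero_le_one (le_add_of_nonneg_right (by positivity))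
  · exact hz _ (by positivity) (le_add_of_nonneg_left zero_le_one)

theorem integrable_divT {X : E → E} (hX : ContDiff ℝ 1 X) (hK : HasCompactSupport X) :
    Integrable (divT X) V :=
  (integrable_base hu hi (continuous_divT hX) hK.isCompact fun z hz => divT_eq_zero z.2 hz).1

/-- partition of unity on `E \ {0}` and a cut-off at `0` -/
theorem stat_of_loc (h0 : ∀ᵐ z ∂V, z.1 ≠ 0)
    (hl : ∀ p : E, p ≠ 0 → ∃ O ∈ 𝓝 p, ∀ X : E → E, ContDiff ℝ 1 X → HasCompactSupport X →
      tsupport X ⊆ O → ∫ z, divT X z ∂V = 0) : Stat V := by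
  let P : Set E → Prop := fun O => ∀ X : E → E, ContDiff ℝ 1 X → HasCompactSupport X →
    tsupport X ⊆ O → ∫ z, divT X z ∂V = 0
  have hun : ∀ O O', IsOpen O → IsOpen O' → P O → P O' → P (O ∪ O') := by
    intro O O' hO hO' h1 h2 X hX hK hs
    obtain ⟨K₁, K₂, hK₁, hK₂, hKV, hKV', hKK⟩ := hK.isCompact.binary_compact_cover hO hO' hs
    obtain ⟨f, hf0, hf1, -⟩ := exists_contMDiffMap_zero_one_nhds_of_isClosed (n := 1) 𝓘(ℝ, E)
      hO.isClosed_compl hK₁.isClosed (disjoint_compl_left_iff_subset.2 hKV)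
    have hf : ContDiff ℝ 1 f := f.contMDiff.contDiff
    have hg : ContDiff ℝ 1 fun y => 1 - f y := contDiff_const.sub hf
    have z1 := h1 (fun y => f y • X y) (hf.smul hX) hK.smul_left (fun y hy => by_contra fun h => by
      refine notMem_tsupport_iff_eventuallyEq.2 ?_ hy
      filter_upwards [hf0.filter_mono (nhds_le_nhdsSet h)] with z hz
      simp [hz])
    have z2 := h2 (fun y => (1 - f y) • X y) (hg.smul hX) hK.smul_left (fun y hy => by
      have h3 : y ∈ K₁ ∪ K₂ := hKK ▸ tsupport_smul_subset_right _ _ hy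
      refine hKV' (h3.resolve_left fun h => notMem_tsupport_iff_eventuallyEq.2 ?_ hy)
      filter_upwards [hf1.filter_mono (nhds_le_nhdsSet h)] with z hz
      simp [hz])
    have h3 : ∀ z, divT X z = divT (fun y => f y • X y) z + divT (fun y => (1 - f y) • X y) z :=
      fun z => by
        rw [← divT_add (X := fun y => f y • X y) (Y := fun y => (1 - f y) • X y) z.2
          ((hf.smul hX).differentiable one_ne_zero _) ((hg.smul hX).differentiable one_ne_zero _)]
        simp only [← add_smul, add_sub_cancel, one_smul]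
    rw [integral_congr_ae (Eventually.of_forall h3), integral_add
      (integrable_divT hu hi (X := fun y => f y • X y) (hf.smul hX) hK.smul_left)
      (integrable_divT hu hi (X := fun y => (1 - f y) • X y) (hg.smul hX) hK.smul_left), z1, z2, add_zero]
  have hz : P {0}ᶜ := by
    intro X hX hK hs
    obtain ⟨O, hO, -, hS⟩ : ∃ O, tsupport X ⊆ O ∧ IsOpen O ∧ P O := by
      refine hK.isCompact.induction_on (p := fun s => ∃ O, s ⊆ O ∧ IsOpen O ∧ P O)
        ⟨∅, Subset.rfl, isOpen_empty, fun X _ _ hs => ?_⟩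
        (fun s t hst ⟨O, h1, h2⟩ => ⟨O, hst.trans h1, h2⟩)
        (fun s t ⟨O, h1, h2, h3⟩ ⟨O', h1', h2', h3'⟩ =>
          ⟨O ∪ O', union_subset_union h1 h1', h2.union h2', hun _ _ h2 h2' h3 h3'⟩) fun p hp => ?_
      · exact integral_eq_zero_of_ae (Eventually.of_forall fun z => divT_eq_zero z.2 fun h => hs h)
      · obtain ⟨O, hO, h⟩ := hl p (hs hp)
        exact ⟨interior O, mem_nhdsWithin_of_mem_nhds (interior_mem_nhds.2 hO), interior O, Subset.rfl,
          isOpen_interior, fun X hX hK hs => h X hX hK (hs.trans interior_subset)⟩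
    exact hS X hX hK hO
  intro X hX hK
  obtain ⟨φ, M, hφ, hc, hφ0, h1, hD, hl⟩ := exists_cutoff (E := E)
  have hS := fun n => hz (fun y => φ n y • X y) ((hφ n).smul hX) (hc n).smul_right
    (fun y hy hy0 => hφ0 n (hy0 ▸ tsupport_smul_subset_left _ _ hy))
  have hI := (integrable_base hu hi (g := fun z => ‖X z.1‖) (hX.continuous.comp continuous_fst).norm
    hK.isCompact fun z hz => by rw [image_eq_zero_of_notMem_tsupport hz, norm_zero]).2
  have hT := tendsto_integral_of_dominated_convergence (μ := V)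
    (F := fun n z => divT (fun y => φ n y • X y) z) (f := divT X)
    (fun z => ‖divT X z‖ + 2 * M * (‖X z.1‖ / ‖z.1‖))
    (fun n => (measurable_divT _).aestronglyMeasurable)
    ((integrable_divT hu hi hX hK).norm.add (hI.const_mul _)) (fun n => ?_) ?_
  · simp only [hS] at hT
    exact tendsto_nhds_unique hT tendsto_const_nhds
  · filter_upwards [hu, h0] with ⟨y, w⟩ hν hy
    rw [divT_smul _ ((hφ n).differentiable one_ne_zero y).hasFDerivAt (hX.differentiable one_ne_zero y)]
    have h2 : ∀ v, ‖fderiv ℝ (φ n) y v‖ ≤ M / ‖y‖ * ‖v‖ := fun v =>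
      (fderiv ℝ (φ n) y).le_of_opNorm_le (hD n y hy) v
    have h3 := norm_inner_le_norm (𝕜 := ℝ) w (X y)
    have h4 := h2 w
    change ‖w‖ = 1 at hν
    rw [hν, mul_one] at h4
    rw [hν, one_mul] at h3
    refine (norm_add_le _ _).trans (add_le_add ?_ ((norm_sub_le _ _).trans ?_))
    · rw [norm_mul]
      exact mul_le_of_le_one_left (norm_nonneg _) (h1 n y)
    · rw [norm_mul]
      have h5 := mul_le_mul h4 h3 (norm_nonneg _) ((norm_nonneg _).trans h4)
      calc _ ≤ M / ‖y‖ * ‖X y‖ + M / ‖y‖ * ‖X y‖ := add_le_add (h2 _) h5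
        _ = _ := by ring
  · filter_upwards [h0] with z hy
    refine tendsto_const_nhds.congr' ((hl z.1 hy).mono fun n hn => divT_congr z.2 ?_)
    filter_upwards [hn] with z hz
    simp [hz]

end glob

end Crest.Agent.R246.J1
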