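import Crest.Agent.R246.J1.Lap

/-!
R246/J1/Mfd: from the manifold to charts.  Statements FROZEN (owner helper2).
-/

set_option autoImplicit false
set_option linter.unusedSectionVars false

open MeasureTheory Metric Filter Topology Set Module
open scoped RealInnerProductSpace ENNReal ContDiff Real

noncomputable section

namespace Crest.Agent.R246.J1

variable {m : ℕ} {E : Type} [NormedAddCommGroup E] [InnerProductSpace ℝ E] [FiniteDimensional ℝ E]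

open scoped Manifold
open Bundle Crest.GeometryTopology.SphereImmersion Crest.GeometryTopology.ChartCurvature

variable {N : ℕ} {M : Type*} [MetricSpace M] [ChartedSpace (Hm m) M] [IsManifold 𝓘(ℝ, Hm m) ∞ M]
  [RiemannianBundle (fun x : M => TangentSpace 𝓘(ℝ, Hm m) x)]
  [IsContMDiffRiemannianBundle 𝓘(ℝ, Hm m) ∞ (Hm m) (fun x : M => TangentSpace 𝓘(ℝ, Hm m) x)]
  {F : M → Hm N}

/-- `contMDiffOn_chart_symm`, `contMDiffOn_iff_contDiffOn` -/
theorem contDiffOn_ch (hF : ContMDiff 𝓘(ℝ, Hm m) 𝓘(ℝ, Hm N) ∞ F) (x : M) :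
    ContDiffOn ℝ ∞ (ch m F x) (chartAt (Hm m) x).target := by
  exact contMDiffOn_iff_contDiffOn.1 (hF.comp_contMDiffOn (contMDiffOn_chart_symm (x := x)))

theorem mfd_chart (x : M) : (chartAt (Hm m) x).MDifferentiable 𝓘(ℝ, Hm m) 𝓘(ℝ, Hm m) := by
  have : IsManifold 𝓘(ℝ, Hm m) 1 M := IsManifold.of_le (n := ∞) (by simp)
  exact mdifferentiable_chart x

/-- chain rule `mfderiv_comp`, `mdifferentiable_chart`, `mfderiv_eq_fderiv` -/
theorem fderiv_ch (hF : ContMDiff 𝓘(ℝ, Hm m) 𝓘(ℝ, Hm N) ∞ F) (x : M) {z : Hm m}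
    (hz : z ∈ (chartAt (Hm m) x).target) (u : Hm m) :
    fderiv ℝ (ch m F x) z u = mfderiv 𝓘(ℝ, Hm m) 𝓘(ℝ, Hm N) F ((chartAt (Hm m) x).symm z)
      (mfderiv 𝓘(ℝ, Hm m) 𝓘(ℝ, Hm m) (chartAt (Hm m) x).symm z u) := by
  have h := mfderiv_comp z (hF.mdifferentiableAt (by simp)) ((mfd_chart x).mdifferentiableAt_symm hz)
  rw [mfderiv_eq_fderiv] at h
  exact DFunLike.congr_fun h u

theorem chartMetric_eq (hF : ContMDiff 𝓘(ℝ, Hm m) 𝓘(ℝ, Hm N) ∞ F) (hiso : IsIsometricMap m N M F)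
    (x : M) : ∀ z ∈ (chartAt (Hm m) x).target, chartMetric m M x z = gram (ch m F x) z := by
  intro z hz
  ext i j
  rw [gram, Matrix.gram_apply, d1, d1, fderiv_ch hF x hz, fderiv_ch hF x hz]
  exact hiso _ _ _

theorem mfd_norm (hiso : IsIsometricMap m N M F) (x : M) (v : TangentSpace 𝓘(ℝ, Hm m) x) (w : Hm N)
    (hw : w = mfderiv 𝓘(ℝ, Hm m) 𝓘(ℝ, Hm N) F x v) : ‖w‖ = ‖v‖ := by
  rw [norm_eq_sqrt_real_inner, norm_eq_sqrt_real_inner, hiso x v v, hw]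
  rfl

/-- `OpenPartialHomeomorph.MDifferentiable.mfderiv_injective` for the inverse chart -/
theorem imm_ch (hF : ContMDiff 𝓘(ℝ, Hm m) 𝓘(ℝ, Hm N) ∞ F) (hS : ∀ x, ‖F x‖ = 1)
    (hiso : IsIsometricMap m N M F) (x : M) : Imm (ch m F x) (chartAt (Hm m) x).target := by
  refine ⟨(chartAt (Hm m) x).open_target, contDiffOn_ch hF x, fun z _ => hS _, fun z hz => ?_⟩
  refine (injective_iff_map_eq_zero _).2 fun u hu => ?_
  have h1 := mfd_norm hiso _ _ _ (fderiv_ch hF x hz u)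
  rw [hu, norm_zero, eq_comm, norm_eq_zero] at h1
  exact (mfd_chart x).symm.mfderiv_injective hz (h1.trans (map_zero _).symm)

theorem cfg {F : M → Hm (m + 2)} (hF : ContMDiff 𝓘(ℝ, Hm m) 𝓘(ℝ, Hm (m + 2)) ∞ F)
    (hS : ∀ x, ‖F x‖ = 1) (hiso : IsIsometricMap m (m + 2) M F)
    (hmin : IsMinimalInSphere m (m + 2) M F) : Cfg m F :=
  { dim := by simp
    cont := hF.continuous
    unit := hS
    imm := imm_ch hF hS hiso
    min := fun x => (imm_ch hF hS hiso x).minAt (ctr_mem x) (chartMetric_eq hF hiso x)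
      fun a => by
        rw [ch_ctr]
        exact hmin x a }

theorem tg_of_flat {F : M → Hm (m + 2)} (hF : ContMDiff 𝓘(ℝ, Hm m) 𝓘(ℝ, Hm (m + 2)) ∞ F)
    (hS : ∀ x, ‖F x‖ = 1) (hiso : IsIsometricMap m (m + 2) M F) {e : Hm (m + 2)} (he : ‖e‖ = 1)
    (h0 : ∀ x, ⟪e, F x⟫ = 0) : IsTotallyGeodesicInSphere m (m + 2) M F := fun x i j a => by
  have h := (imm_ch hF hS hiso x).tg_of_flat rfl (ctr_mem x) (chartMetric_eq hF hiso x) he
    (fun z _ => h0 _) i j a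
  rw [ch_ctr] at h
  exact h

/-- `IsRiemannianManifold.out`, `Manifold.exists_lt_of_riemannianEDist_lt`,
`pathELength_eq_lintegral_mfderivWithin_Icc`, `enorm_sub_le_lintegral_derivWithin_Icc_of_contDiffOn_Icc`
(see the proof of the instance `IsRiemannianManifold 𝓘(ℝ, F) F` in Mathlib, and `R219/T/Tor.lean`) -/
theorem lip [IsRiemannianManifold 𝓘(ℝ, Hm m) M] (hF : ContMDiff 𝓘(ℝ, Hm m) 𝓘(ℝ, Hm N) ∞ F)
    (hiso : IsIsometricMap m N M F) : LipschitzWith 1 F := by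
  intro x y
  rw [ENNReal.coe_one, one_mul, IsRiemannianManifold.out (I := 𝓘(ℝ, Hm m)) x y]
  refine le_of_forall_gt fun r hr => ?_
  obtain ⟨γ, h0, h1, hγ, hl⟩ := Manifold.exists_lt_of_riemannianEDist_lt hr
  refine lt_of_le_of_lt ?_ hl
  have hD : ContDiffOn ℝ 1 (F ∘ γ) (Icc 0 1) :=
    contMDiffOn_iff_contDiffOn.1 ((hF.of_le (by simp)).comp_contMDiffOn hγ)
  have h2 := enorm_sub_le_lintegral_derivWithin_Icc_of_contDiffOn_Icc hD zero_le_one
  simp only [Function.comp_apply, h0, h1] at h2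
  rw [edist_comm, edist_eq_enorm_sub]
  refine h2.trans ?_
  rw [Manifold.pathELength_eq_lintegral_mfderivWithin_Icc]
  refine MeasureTheory.setLIntegral_mono' measurableSet_Icc fun t ht => ?_
  have h3 := (((hF.mdifferentiableAt (x := γ t) (by simp)).hasMFDerivAt).comp_hasMFDerivWithinAt t
    (hγ.mdifferentiableOn one_ne_zero t ht).hasMFDerivWithinAt).mfderivWithin
    (uniqueMDiffWithinAt_iff_uniqueDiffWithinAt.2 (uniqueDiffOn_Icc zero_lt_one t ht))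
  rw [mfderivWithin_eq_fderivWithin] at h3
  have h4 : derivWithin (F ∘ γ) (Icc 0 1) t = mfderiv 𝓘(ℝ, Hm m) 𝓘(ℝ, Hm N) F (γ t)
      (mfderivWithin 𝓘(ℝ, ℝ) 𝓘(ℝ, Hm m) γ (Icc 0 1) t (1 : ℝ)) :=
    DFunLike.congr_fun h3 (1 : ℝ)
  rw [← ofReal_norm, ← ofReal_norm, mfd_norm hiso _ _ _ h4]
  exact le_of_eq rfl

end Crest.Agent.R246.J1
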