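import Crest.Agent.R246.J1.Var
import Crest.Agent.R246.J1.Mfd

/-! Row 246, block J1: final statements (see `R246/Blueprint.lean`). -/

set_option autoImplicit false

open MeasureTheory Set

namespace Crest.Agent.R246

open J1 Crest.GeometryTopology.SphereImmersion in
theorem stBridge.{u} (hB : Bas) (hA : All fun E => StArea E) (hD : All fun E => StDist E)
    (hJ : All fun E => StJB E) : StBridge.{u} := by
  intro m hm M _ _ _ _ _ _ _ _ _ _ F hF hS hiso hmin hntg hlt
  have ha : 0 < unitSphereArea m := by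
    unfold unitSphereArea
    have := Real.Gamma_pos_of_pos (s := ((m : ℝ) + 1) / 2) (by positivity)
    have := Real.pi_pos
    positivity
  have hC := cfg hF hS hiso hmin
  obtain ⟨ν, hν, hle⟩ := hC.exists_vol (hA _) (lip hF hiso) (hlt.trans ENNReal.ofReal_lt_top)
  have hth := th_mF hC hν.fin
  have hinj : Function.Injective F := inj_of_lt hB (by omega) hC hν (by
    rw [hth, div_lt_iff₀ ha]
    exact ENNReal.toReal_lt_of_lt_ofReal (hle.trans_lt hlt))
  have hcc : CCone (insert 0 (cn (range F))) :=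
    ccone_cn (isCompact_range hC.cont).isClosed (by rintro _ ⟨x, rfl⟩; exact hS x)
  obtain ⟨s, hs, hs'⟩ := hJ _ (by rw [hC.dim]; omega) _ hcc (hC.locAt hinj)
  refine ⟨_, _, hD _ _ s hcc hs hs', ?_, ?_⟩
  · rintro ⟨e, he, h0⟩
    exact hntg (tg_of_flat hF hS hiso he fun x =>
      h0 _ (Or.inr ⟨1, one_pos, F x, ⟨x, rfl⟩, (one_smul _ _).symm⟩))
  · have h1 := hν.cone univ MeasurableSet.univ hinj.injOn
    rw [Measure.restrict_univ, image_univ] at h1
    rw [Th, ar_insert, ← h1, hth, div_mul_cancel₀ _ ha.ne', ENNReal.ofReal_toReal hν.fin.ne]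
    exact hle

end Crest.Agent.R246
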