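import Crest.Agent.R246.J1.Ift

/-!
R246/J1/Sheet: sheets of the immersed cone.  Statements FROZEN (owner helper2).
-/

set_option autoImplicit false
set_option linter.unusedSectionVars false

open MeasureTheory Metric Filter Topology Set Module
open scoped RealInnerProductSpace ENNReal ContDiff Real

noncomputable section

namespace Crest.Agent.R246.J1

variable {m : ℕ} {E : Type} [NormedAddCommGroup E] [InnerProductSpace ℝ E] [FiniteDimensional ℝ E]
variable {M : Type*} [MetricSpace M] [ChartedSpace (Hm m) M] {F : M → E}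

theorem Cfg.nrm_unique (h : Cfg m F) {x : M} {w w' : E} (hw : Nrm m F x w) (hw' : Nrm m F x w') :
    w' = w ∨ w' = -w :=
  ((h.imm x).fr (ctr_mem x)).pp_unique h.dim hw.1 hw'.1 hw.2 hw'.2

/-! ### part a -/

/-- `Imm.exists_def` in the chart `φ` at `x` on `φ.target ∩ φ.symm ⁻¹' interior N`, `U = φ.symm '' O₁`
(`= φ.source ∩ φ ⁻¹' O₁`).  At another point `x' ∈ U` use `zero_calc`, `min_of_zero` in the chart at
`x'`: `f (s • ch x' z) = 0` for `(s, z)` near `(t, ctr x')` by continuity. -/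
theorem Cfg.exists_sheet (h : Cfg m F) (x : M) {t : ℝ} (ht : 0 < t) {N : Set M} (hN : N ∈ 𝓝 x) :
    ∃ U f O, x ∈ U ∧ U ⊆ N ∧ Sheet m F (t • F x) U f O := by
  set φ := chartAt (Hm m) x with hφ
  have hx : x ∈ φ.source := mem_chart_source _ x
  have hI : Imm (ch m F x) (φ.target ∩ φ.symm ⁻¹' interior N) :=
    (h.imm x).mono (φ.isOpen_inter_preimage_symm isOpen_interior) inter_subset_left
  obtain ⟨O₁, f, W, hO₁, hc₁, hsub, hinj, hW, hpW, hf, hne, hz⟩ := hI.exists_def h.dim (c := ctr m x)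
    ⟨ctr_mem x, by
      rw [mem_preimage, ctr, φ.left_inv hx]
      exact mem_interior_iff_mem_nhds.2 hN⟩ ht
  rw [ch_ctr] at hpW
  have hF : ∀ y ∈ φ.source, F y = ch m F x (φ y) := fun y hy => by rw [ch, φ.left_inv hy]
  have hU : IsOpen (φ.source ∩ φ ⁻¹' O₁) := φ.isOpen_inter_preimage hO₁
  have him : F '' (φ.source ∩ φ ⁻¹' O₁) = ch m F x '' O₁ := by
    refine Subset.antisymm ?_ ?_
    · rintro _ ⟨y, hy, rfl⟩
      exact ⟨φ y, hy.2, (hF y hy.1).symm⟩
    · rintro _ ⟨z, hz, rfl⟩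
      exact ⟨φ.symm z, ⟨φ.map_target (hsub hz).1, by rwa [mem_preimage, φ.right_inv (hsub hz).1]⟩, rfl⟩
  have key : ∀ y ∈ φ.source ∩ φ ⁻¹' O₁, ∀ s : ℝ, 0 < s → s • F y ∈ W →
      ∀ᶠ q : ℝ × Hm m in 𝓝 (s, ctr m y), f (q.1 • ch m F y q.2) = 0 := fun y hy s hs hsW => by
    have hy' : (chartAt (Hm m) y).symm (ctr m y) = y :=
      (chartAt (Hm m) y).left_inv (mem_chart_source _ y)
    have h1 : ContinuousAt (fun q : ℝ × Hm m => (chartAt (Hm m) y).symm q.2) (s, ctr m y) :=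
      ContinuousAt.comp (f := fun q : ℝ × Hm m => q.2)
        ((chartAt (Hm m) y).continuousAt_symm (ctr_mem y)) continuousAt_snd
    have h2 : ContinuousAt (fun q : ℝ × Hm m => q.1 • ch m F y q.2) (s, ctr m y) :=
      continuousAt_fst.smul (h.cont.continuousAt.comp h1)
    filter_upwards [h1.eventually (hU.mem_nhds (by simpa only [hy'] using hy)),
      h2.eventually (hW.mem_nhds (by simpa only [ch_ctr] using hsW)),
      continuousAt_fst.eventually (lt_mem_nhds hs)] with q h3 h4 h5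
    exact (hz _ h4).1 ⟨q.1, h5, _, him ▸ ⟨_, h3, rfl⟩, rfl⟩
  refine ⟨φ.source ∩ φ ⁻¹' O₁, f, W, ⟨hx, hc₁⟩, fun y hy => ?_, hU, fun y hy y' hy' e => ?_,
    ⟨hW, hpW, hf, hne, him ▸ hz, ?_⟩, fun y hy s hs hsW => ?_⟩
  · have := (hsub hy.2).2
    rw [mem_preimage, φ.left_inv hy.1] at this
    exact interior_subset this
  · rw [hF y hy.1, hF y' hy'.1] at e
    exact φ.injOn hy.1 hy'.1 (hinj hy.2 hy'.2 e)
  · rintro _ hsW ⟨s, hs, _, ⟨y, hy, rfl⟩, rfl⟩
    have := (h.imm y).min_of_zero h.dim (ctr_mem y) (h.min y) hs (f := f)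
      (by rw [ch_ctr]; exact hf.contDiffAt (hW.mem_nhds hsW)) (key y hy s hs hsW)
      (by rw [ch_ctr]; exact hne _ hsW)
    rwa [ch_ctr] at this
  · have := ((h.imm y).zero_calc (ctr_mem y) hs (f := f)
      (by rw [ch_ctr]; exact hf.contDiffAt (hW.mem_nhds hsW)) (key y hy s hs hsW)).1
    rw [ch_ctr] at this
    refine ⟨norm_smul_inv_norm (𝕜 := ℝ) (hne _ hsW), ?_, fun i => ?_⟩
    · rw [un, real_inner_smul_left, this.1, mul_zero]
    · rw [un, real_inner_smul_left, this.2 i, mul_zero]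

/-! ### part b -/

theorem Cfg.locInj (h : Cfg m F) (x : M) : ∃ U ∈ 𝓝 x, InjOn F U := by
  obtain ⟨U, f, O, hx, -, hU⟩ := h.exists_sheet x one_pos univ_mem
  exact ⟨U, hU.isOpen.mem_nhds hx, hU.inj⟩

theorem norm_cn {a : E} (ha : ‖a‖ = 1) {t : ℝ} (ht : 0 < t) : ‖t • a‖ = t := by
  rw [norm_smul, ha, mul_one, Real.norm_of_nonneg ht.le]

/-- e.g. sequences, or: the complement is `{y ≠ 0, ‖y‖⁻¹ • y ∉ A}` -/
theorem isClosed_cn {A : Set E} (hA : IsClosed A) (hu : ∀ a ∈ A, ‖a‖ = 1) :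
    IsClosed (insert 0 (cn A)) := by
  rw [← isOpen_compl_iff, isOpen_iff_mem_nhds]
  intro y hy
  have h0 : y ≠ 0 := fun h => hy (Or.inl h)
  have h1 : ‖y‖⁻¹ • y ∈ Aᶜ := fun h => hy (Or.inr ⟨‖y‖, norm_pos_iff.2 h0, _, h,
    (smul_inv_smul₀ (norm_ne_zero_iff.2 h0) y).symm⟩)
  have h2 : ContinuousAt (fun y : E => ‖y‖⁻¹ • y) y :=
    (continuousAt_id.norm.inv₀ (norm_ne_zero_iff.2 h0)).smul continuousAt_id
  filter_upwards [h2.eventually (hA.isOpen_compl.mem_nhds h1), isOpen_ne.mem_nhds h0] with z hz hz0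
  rintro (h | ⟨t, ht, a, ha, rfl⟩)
  · exact hz0 h
  · rw [norm_cn (hu a ha) ht, inv_smul_smul₀ ht.ne'] at hz
    exact hz ha

theorem ccone_cn {A : Set E} (hA : IsClosed A) (hu : ∀ a ∈ A, ‖a‖ = 1) :
    CCone (insert 0 (cn A)) := by
  refine ⟨isClosed_cn hA hu, Or.inl rfl, ?_⟩
  rintro t ht y (rfl | ⟨s, hs, a, ha, rfl⟩)
  · exact Or.inl (smul_zero t)
  · exact Or.inr ⟨t * s, mul_pos ht hs, a, ha, smul_smul _ _ _⟩

/-- compact and discrete -/
theorem Cfg.finite_fiber [CompactSpace M] (h : Cfg m F) (a : E) : (F ⁻¹' {a}).Finite := by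
  choose U hU hi using h.locInj
  obtain ⟨T, -, hT⟩ := isCompact_univ.elim_nhds_subcover U fun x _ => hU x
  refine (T.finite_toSet.biUnion (t := fun x => U x ∩ F ⁻¹' {a}) fun x _ => ?_).subset fun y hy => ?_
  · exact Set.Subsingleton.finite fun y hy z hz => hi x hy.1 hz.1 (hy.2.trans hz.2.symm)
  · obtain ⟨x, hx, hyx⟩ := mem_iUnion₂.1 (hT (mem_univ y))
    exact mem_biUnion hx ⟨hyx, hy⟩

/-- `T` = the fibre over `‖p‖⁻¹ • p`, disjoint neighbourhoods (`Set.Finite.t2_separation`),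
`exists_sheet` with `t = ‖p‖`, `W` = complement of the closed cone over `F '' (⋃ U x)ᶜ` -/
theorem Cfg.exists_sheets [CompactSpace M] (h : Cfg m F) {p : E} (hp : p ≠ 0) :
    ∃ (T : Finset M) (U : M → Set M) (f : M → E → ℝ) (O : M → Set E) (W : Set E),
      (∀ x ∈ T, x ∈ U x ∧ p = ‖p‖ • F x ∧ Sheet m F p (U x) (f x) (O x)) ∧
      (T : Set M).PairwiseDisjoint U ∧ (∀ x, p = ‖p‖ • F x → x ∈ T) ∧ IsOpen W ∧ p ∈ W ∧
      ∀ (t : ℝ) (x : M), 0 < t → t • F x ∈ W → ∃ x' ∈ T, x ∈ U x' := by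
  have hn : 0 < ‖p‖ := norm_pos_iff.2 hp
  have hfin := h.finite_fiber (‖p‖⁻¹ • p)
  have hT : ∀ x, x ∈ hfin.toFinset ↔ p = ‖p‖ • F x := fun x => by
    rw [Finite.mem_toFinset, mem_preimage, mem_singleton_iff, eq_inv_smul_iff₀ hn.ne', eq_comm]
  obtain ⟨V, hV, hVd⟩ := hfin.t2_separation
  choose U f O hx hUV hS using fun x => h.exists_sheet x hn ((hV x).2.mem_nhds (hV x).1)
  have hK : IsCompact (F '' (⋃ x ∈ hfin.toFinset, U x)ᶜ) :=
    (isOpen_biUnion fun x _ => (hS x).isOpen).isClosed_compl.isCompact.image h.cont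
  refine ⟨hfin.toFinset, U, f, O, (insert 0 (cn (F '' (⋃ x ∈ hfin.toFinset, U x)ᶜ)))ᶜ,
    fun x hx' => ⟨hx x, (hT x).1 hx', by have := hS x; rwa [← (hT x).1 hx'] at this⟩,
    ?_, fun x => (hT x).2,
    (isClosed_cn hK.isClosed (by rintro _ ⟨x, -, rfl⟩; exact h.unit x)).isOpen_compl, ?_,
    fun t x ht hW => ?_⟩
  · rw [Finite.coe_toFinset]
    exact hVd.mono hUV
  · rintro (h0 | ⟨t, ht, _, ⟨x, hx', rfl⟩, e⟩)
    · exact hp h0
    · have : ‖p‖ = t := by rw [e, norm_cn (h.unit x) ht]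
      exact hx' (mem_biUnion ((hT x).2 (this ▸ e)) (hx x))
  · by_contra hc
    refine hW (Or.inr ⟨t, ht, _, ⟨x, fun hx' => ?_, rfl⟩, rfl⟩)
    obtain ⟨x', h1, h2⟩ := mem_iUnion₂.1 hx'
    exact hc ⟨x', h1, h2⟩

/-- `exists_sheets`: `T` is a single point, `U = O x ∩ W ∩ {0}ᶜ` -/
theorem Cfg.locAt [CompactSpace M] (h : Cfg m F) (hi : Function.Injective F) :
    ∀ p ∈ insert 0 (cn (range F)), p ≠ 0 → ∃ f U, LocAt (insert 0 (cn (range F))) p f U := by
  rintro p (rfl | ⟨t, ht, _, ⟨x, rfl⟩, e⟩) hp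
  · exact (hp rfl).elim
  obtain ⟨T, U, f, O, W, h1, -, h2, hW, hpW, h3⟩ := h.exists_sheets hp
  have hx : p = ‖p‖ • F x := by
    conv_rhs => rw [e, norm_cn (h.unit x) ht]
    exact e
  have hS := (h1 x (h2 x hx)).2.2.loc
  have key : ∀ y ∈ O x ∩ (W ∩ {0}ᶜ), y ∈ insert 0 (cn (range F)) ↔ y ∈ cn (F '' U x) := by
    refine fun y hy => ⟨?_, ?_⟩
    · rintro (rfl | ⟨s, hs, _, ⟨z, rfl⟩, rfl⟩)
      · exact (hy.2.2 rfl).elim
      obtain ⟨x', hx', hz⟩ := h3 s z hs hy.2.1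
      have : x' = x := hi (smul_right_injective E (norm_ne_zero_iff.2 hp)
        ((h1 x' hx').2.1.symm.trans hx))
      exact ⟨s, hs, _, ⟨z, this ▸ hz, rfl⟩, rfl⟩
    · rintro ⟨s, hs, _, ⟨z, -, rfl⟩, rfl⟩
      exact Or.inr ⟨s, hs, _, ⟨z, rfl⟩, rfl⟩
  exact ⟨f x, O x ∩ (W ∩ {0}ᶜ), hS.isOpen.inter (hW.inter isOpen_compl_singleton), ⟨hS.mem, hpW, hp⟩,
    hS.smooth.mono inter_subset_left, fun y hy => hS.grad_ne y hy.1,
    fun y hy => (key y hy).trans (hS.zero_iff y hy.1),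
    fun y hy hC => hS.minimal y hy.1 ((key y hy).1 hC)⟩

/-- countable subcover by the interiors, `κ y` = first index (`Nat.find`, `measurable_find`) -/
theorem exists_part [CompactSpace M] [Nonempty M] [MeasurableSpace M] [BorelSpace M]
    {N : M → Set M} (hN : ∀ x, N x ∈ 𝓝 x) :
    ∃ (x : ℕ → M) (κ : M → ℕ), Measurable κ ∧ ∀ y, y ∈ N (x (κ y)) := by
  classical
  obtain ⟨T, -, hT⟩ := isCompact_univ.elim_nhds_subcover (fun x => interior (N x))
    fun x _ => interior_mem_nhds.2 (hN x)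
  have hne : (T : Set M).Nonempty := by
    obtain ⟨x, hx, -⟩ := mem_iUnion₂.1 (hT (mem_univ (Classical.arbitrary M)))
    exact ⟨x, hx⟩
  obtain ⟨x, hx⟩ := T.countable_toSet.exists_eq_range hne
  have h : ∀ y, ∃ k, y ∈ interior (N (x k)) := fun y => by
    obtain ⟨z, hz, hy⟩ := mem_iUnion₂.1 (hT (mem_univ y))
    obtain ⟨k, rfl⟩ : z ∈ range x := hx ▸ hz
    exact ⟨k, hy⟩
  exact ⟨x, fun y => Nat.find (h y), measurable_find h fun k => isOpen_interior.measurableSet,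
    fun y => interior_subset (Nat.find_spec (h y))⟩

theorem measurable_un [MeasurableSpace E] [BorelSpace E] (f : E → ℝ) : Measurable (un f) := by
  have : Measurable (gradient f) :=
    (InnerProductSpace.toDual ℝ E).symm.continuous.measurable.comp (measurable_fderiv ℝ f)
  exact this.norm.inv.smul this

/-- `exists_sheet` with `t = 1`, `N x = U x ∩ F ⁻¹' O x`, `n y = un (f (x (κ y))) (F y)`,
`measurable_from_prod_countable_left/right` -/
theorem Cfg.exists_normal [CompactSpace M] [Nonempty M] [MeasurableSpace M] [BorelSpace M]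
    [MeasurableSpace E] [BorelSpace E] (h : Cfg m F) :
    ∃ n : M → E, Measurable n ∧ ∀ x, Nrm m F x (n x) := by
  choose U f O hx _ hS using fun x => h.exists_sheet x one_pos univ_mem
  obtain ⟨x, κ, hκ, hy⟩ := exists_part (N := fun x => U x ∩ F ⁻¹' O x) fun x =>
    inter_mem ((hS x).isOpen.mem_nhds (hx x)) (h.cont.continuousAt.preimage_mem_nhds
      ((hS x).loc.isOpen.mem_nhds (by simpa using (hS x).loc.mem)))
  refine ⟨fun y => un (f (x (κ y))) (F y), ?_, fun y => ?_⟩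
  · have : Measurable fun q : M × ℕ => un (f (x q.2)) (F q.1) :=
      measurable_from_prod_countable_left fun k => (measurable_un (f (x k))).comp h.cont.measurable
    exact this.comp (measurable_id.prodMk hκ)
  · simpa using (hS (x (κ y))).nrm y (hy y).1 1 one_pos (by simpa using (hy y).2)

end Crest.Agent.R246.J1
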