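import Crest.Agent.R246.J1.Vol
import Crest.Agent.R246.J1.Loc

/-!
R246/J1/Var: the cone varifold with multiplicity.
-/

set_option autoImplicit false
set_option linter.unusedSectionVars false

open MeasureTheory Metric Filter Topology Set Module
open scoped RealInnerProductSpace ENNReal ContDiff Real

noncomputable section

namespace Crest.Agent.R246.J1

variable {m : ℕ} {E : Type} [NormedAddCommGroup E] [InnerProductSpace ℝ E] [FiniteDimensional ℝ E]
variable [MeasurableSpace E] [BorelSpace E]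
variable {M : Type*} [MetricSpace M] [CompactSpace M] [MeasurableSpace M] [BorelSpace M]
  [ChartedSpace (Hm m) M] {F n : M → E} {ν : Measure M}

open Crest.GeometryTopology.SphereImmersion G1

theorem measurable_vF (hF : Continuous F) (hn : Measurable n) :
    Measurable fun z : ℝ × M => (z.1 • F z.2, n z.2) :=
  (measurable_cone hF).prodMk (hn.comp measurable_snd)

theorem fst_vF (hn : Measurable n) : (vF m F n ν).fst = mF m F ν :=
  Measure.fst_map_prodMk (hn.comp measurable_snd)

theorem ae_pos (ν : Measure M) : ∀ᵐ z ∂(rad m).prod ν, 0 < z.1 :=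
  Measure.quasiMeasurePreserving_fst.ae rad_pos

theorem unit_vF (hF : Continuous F) (hn : Measurable n) (h : ∀ x, Nrm m F x (n x)) :
    ∀ᵐ z ∂vF m F n ν, ‖z.2‖ = 1 :=
  (ae_map_iff (measurable_vF hF hn).aemeasurable
    (measurableSet_eq_fun measurable_snd.norm measurable_const)).2
    (Eventually.of_forall fun z => (h z.2).1)

theorem vcone_vF (hF : Continuous F) (hn : Measurable n) (h : ∀ x, Nrm m F x (n x)) :
    VCone (vF m F n ν) :=
  (ae_map_iff (measurable_vF hF hn).aemeasurable
    (measurableSet_eq_fun (measurable_snd.inner measurable_fst) measurable_const)).2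
    (Eventually.of_forall fun z => by
      have := (h z.2).2.1
      rw [ch_ctr] at this
      simp only [inner_smul_right, this, mul_zero])

theorem integrable_mF (h : Cfg m F) (hν : ν univ < ⊤) (d : ℕ) (p : E) {r : ℝ} (hr : 0 < r) :
    Integrable (gk d p r) (mF m F ν) := by
  have : IsFiniteMeasure ν := ⟨hν⟩
  rw [mF, integrable_map_measure (continuous_gk d p r).aestronglyMeasurable
    (measurable_cone h.cont).aemeasurable]
  refine (((integrable_rad (m := m) (b := 1 / (4 * r ^ 2)) (by positivity)).comp_fst ν).const_mul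
    ((√(2 * π) * r)⁻¹ ^ d * Real.exp (‖p‖ ^ 2 / (2 * r ^ 2)))).mono'
    ((continuous_gk d p r).measurable.comp (measurable_cone h.cont)).aestronglyMeasurable
    ((ae_pos ν).mono fun z hz => ?_)
  rw [Function.comp, Real.norm_of_nonneg (gk_pos d p hr _).le, gk, mul_assoc, ← Real.exp_add]
  gcongr
  have h1 : z.1 ≤ ‖z.1 • F z.2 - p‖ + ‖p‖ := by
    conv_lhs => rw [← norm_cn (h.unit z.2) hz]
    exact norm_le_norm_sub_add _ _
  have h2 : z.1 ^ 2 ≤ 2 * ‖z.1 • F z.2 - p‖ ^ 2 + 2 * ‖p‖ ^ 2 := by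
    nlinarith [sq_nonneg (‖z.1 • F z.2 - p‖ - ‖p‖), pow_le_pow_left₀ hz.le h1 2]
  rw [div_le_iff₀ (by positivity)]
  field_simp
  linarith

theorem th_mF (h : Cfg m F) (hν : ν univ < ⊤) :
    th (m + 1) (mF m F ν) 0 1 = (ν univ).toReal / unitSphereArea m := by
  have : IsFiniteMeasure ν := ⟨hν⟩
  rw [th, mF, integral_map (measurable_cone h.cont).aemeasurable
    (continuous_gk _ _ _).aestronglyMeasurable, integral_congr_ae (g := fun z =>
      (√(2 * π) * 1)⁻¹ ^ (m + 1) * Real.exp (-z.1 ^ 2 / (2 * 1 ^ 2)))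
      ((ae_pos ν).mono fun z hz => by simp only [gk, sub_zero, norm_cn (h.unit z.2) hz]),
    integral_fun_fst fun t : ℝ => (√(2 * π) * 1)⁻¹ ^ (m + 1) * Real.exp (-t ^ 2 / (2 * 1 ^ 2)),
    integral_rad]
  rfl

theorem ar_insert (C : Set E) : ar (m + 1) (insert 0 C) = ar (m + 1) C := by
  refine Measure.restrict_congr_set ?_
  have h : (μHE[m + 1] : Measure E) {0} = 0 := by
    simpa [ar] using ar_zero (d := m + 1) (by omega) (univ : Set E)
  exact union_ae_eq_right_of_ae_eq_empty (ae_eq_empty.2 h)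

theorem divT_neg (X : E → E) (y w : E) : divT X (y, -w) = divT X (y, w) := by
  simp [divT]

theorem integrable_inv (hm : 1 ≤ m) (h : Cfg m F) (hν : ν univ < ⊤) (hn : Measurable n) (R : ℝ) :
    Integrable (fun z : E × E => (closedBall 0 R).indicator (fun y => 1 + ‖y‖⁻¹) z.1) (vF m F n ν) := by
  have : IsFiniteMeasure ν := ⟨hν⟩
  have h1 : Integrable ((Iic R).indicator fun t : ℝ => 1 + t⁻¹) (rad m) := by
    obtain ⟨k, rfl⟩ := Nat.exists_eq_add_of_le' hm
    rw [rad, integrable_withDensity_iff_integrable_smul' (by fun_prop)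
      (Eventually.of_forall fun _ => ENNReal.ofReal_lt_top)]
    have h2 : IntegrableOn (fun t : ℝ => t ^ (k + 1) + t ^ k) (Iic R ∩ Ioi 0) := by
      rw [Iic_inter_Ioi]
      exact (by fun_prop : Continuous fun t : ℝ => t ^ (k + 1) + t ^ k).integrableOn_Icc.mono_set
        Ioc_subset_Icc_self
    rw [IntegrableOn, ← Measure.restrict_restrict measurableSet_Iic, ← IntegrableOn,
      ← integrable_indicator_iff measurableSet_Iic] at h2
    refine h2.congr ((ae_restrict_mem measurableSet_Ioi).mono fun t ht => ?_)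
    have ht' : (0 : ℝ) < t := ht
    by_cases hR : t ∈ Iic R
    · simp only [indicator_of_mem hR, ENNReal.toReal_ofReal (pow_nonneg ht'.le _), smul_eq_mul]
      field_simp
      ring
    · simp [indicator_of_notMem hR]
  refine (integrable_map_measure (((measurable_const.add measurable_norm.inv).indicator
    measurableSet_closedBall).comp measurable_fst).aestronglyMeasurable
    (measurable_vF h.cont hn).aemeasurable).2
    ((h1.comp_fst ν).congr ((ae_pos ν).mono fun z hz => ?_))
  simp only [Function.comp, indicator, mem_closedBall_zero_iff, norm_cn (h.unit z.2) hz, mem_Iic,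
    Pi.add_apply, Pi.inv_apply]

theorem integral_sheet (h : Cfg m F) (hν : IsVol m F ν) (hn' : ∀ x, Nrm m F x (n x)) {p : E}
    {U : Set M} {f : E → ℝ} {O O' : Set E} (hs : Sheet m F p U f O) (hO : IsOpen O') (hO' : O' ⊆ O)
    {X : E → E} (hsupp : tsupport X ⊆ O') :
    ∫ z, divT X (z.1 • F z.2, n z.2) ∂(rad m).prod (ν.restrict U) =
      ∫ y, divT X (y, un f y) ∂ar (m + 1) (cn (F '' U) ∩ O') := by
  have hU := hs.isOpen.measurableSet
  rw [ar, inter_comm, ← Measure.restrict_restrict hO.measurableSet,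
    setIntegral_eq_integral_of_forall_compl_eq_zero fun y hy => divT_eq_zero _ fun h => hy (hsupp h),
    ← ar, ← hν.cone U hU hs.inj, mF, integral_map (measurable_cone h.cont).aemeasurable
      (f := fun y => divT X (y, un f y))
      ((measurable_divT X).comp (measurable_id.prodMk (measurable_un f))).aestronglyMeasurable]
  refine integral_congr_ae ?_
  filter_upwards [ae_pos _, Measure.quasiMeasurePreserving_snd.ae (ae_restrict_mem hU)] with z h1 h2
  by_cases hz : z.1 • F z.2 ∈ tsupport X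
  · rcases h.nrm_unique (hs.nrm _ h2 _ h1 (hO' (hsupp hz))) (hn' z.2) with e | e
    · rw [e]
    · rw [e, divT_neg]
  · rw [divT_eq_zero _ hz, divT_eq_zero _ hz]

theorem loc_vF (hm : 1 ≤ m) (h : Cfg m F) (hν : IsVol m F ν) (hn : Measurable n)
    (hn' : ∀ x, Nrm m F x (n x)) {p : E} (hp : p ≠ 0) :
    ∃ O ∈ 𝓝 p, ∀ X : E → E, ContDiff ℝ 1 X → HasCompactSupport X → tsupport X ⊆ O →
      ∫ z, divT X z ∂vF m F n ν = 0 := by
  have : IsFiniteMeasure ν := ⟨hν.fin⟩
  obtain ⟨T, U, f, O, W, h1, h2, -, hW, hpW, h3⟩ := h.exists_sheets hp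
  choose! O' hO' hpO' hsub hst _ using fun x (hx : x ∈ T) => loc_stat h.dim (h1 x hx).2.2.loc
    ⟨‖p‖, norm_pos_iff.2 hp, _, ⟨x, (h1 x hx).1, rfl⟩, (h1 x hx).2.1⟩
  refine ⟨W ∩ ⋂ x ∈ T, O' x, inter_mem (hW.mem_nhds hpW)
    ((biInter_finset_mem T).2 fun x hx => (hO' x hx).mem_nhds (hpO' x hx)), fun X hX hK hs => ?_⟩
  have hi := integrable_divT (unit_vF h.cont hn hn') (integrable_inv hm h hν.fin hn) hX hK
  have hUm : ∀ x ∈ T, MeasurableSet ((univ : Set ℝ) ×ˢ U x) := fun x hx =>
    MeasurableSet.univ.prod (h1 x hx).2.2.isOpen.measurableSet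
  rw [vF, integrable_map_measure (measurable_divT X).aestronglyMeasurable
    (measurable_vF h.cont hn).aemeasurable] at hi
  rw [vF, integral_map (measurable_vF h.cont hn).aemeasurable (measurable_divT X).aestronglyMeasurable,
    ← setIntegral_eq_integral_of_ae_compl_eq_zero (s := ⋃ x ∈ T, (univ : Set ℝ) ×ˢ U x)
      ((ae_pos ν).mono fun z hz hz' => divT_eq_zero _ fun hc => by
        obtain ⟨x, hx, hzx⟩ := h3 _ _ hz (hs hc).1
        exact hz' (mem_biUnion hx ⟨trivial, hzx⟩)),
    integral_biUnion_finset (f := fun z : ℝ × M => divT X (z.1 • F z.2, n z.2)) T hUm (fun x hx y hy hxy =>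
      disjoint_left.2 fun z hz hz' => disjoint_left.1 (h2 hx hy hxy) hz.2 hz'.2)
      fun x _ => hi.integrableOn]
  refine Finset.sum_eq_zero fun x hx => ?_
  have h4 : tsupport X ⊆ O' x := fun y hy => mem_iInter₂.1 (hs hy).2 x hx
  rw [← Measure.prod_restrict, Measure.restrict_univ,
    integral_sheet h hν hn' (h1 x hx).2.2 (hO' x hx) (hsub x hx) h4]
  exact hst x hx X hX hK h4

theorem sv0_vF (hm : 1 ≤ m) (h : Cfg m F) (hν : IsVol m F ν)
    (hn : Measurable n) (hn' : ∀ x, Nrm m F x (n x)) : SV0 (m + 1) (vF m F n ν) := by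
  refine ⟨unit_vF h.cont hn hn', fun p r hr => ?_,
    stat_of_loc (unit_vF h.cont hn hn') (integrable_inv hm h hν.fin hn) ?_
      fun p hp => loc_vF hm h hν hn hn' hp⟩
  · rw [fst_vF hn]
    exact integrable_mF h hν.fin _ p hr
  · refine (ae_map_iff (measurable_vF h.cont hn).aemeasurable
      (measurable_fst (measurableSet_singleton 0).compl)).2 ((ae_pos ν).mono fun z hz h0 => ?_)
    have := norm_cn (h.unit z.2) hz
    rw [show z.1 • F z.2 = 0 from h0, norm_zero] at this
    exact hz.ne this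

/-- two disjoint sheets through `p = F x = F x'` would give density `2` -/
theorem inj_of_lt [Nonempty M] (hB : Bas) (hm : 1 ≤ m) (h : Cfg m F)
    (hν : IsVol m F ν) (hlt : th (m + 1) (mF m F ν) 0 1 < 2) : Function.Injective F := by
  have : IsFiniteMeasure ν := ⟨hν.fin⟩
  intro x x' e
  by_contra hne
  obtain ⟨n, hn, hn'⟩ := h.exists_normal
  have hup := (hB.cone E (m + 1) h.dim _ (sv0_vF hm h hν hn hn') (vcone_vF h.cont hn hn')).2.2 (F x)
  rw [fst_vF hn] at hup
  have hp : F x ≠ 0 := fun h0 => by simpa [h0] using h.unit x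
  obtain ⟨T, U, f, O, W, h1, h2, h3, -⟩ := h.exists_sheets hp
  have hx : x ∈ T := h3 x (by rw [h.unit, one_smul])
  have hx' : x' ∈ T := h3 x' (by rw [h.unit, one_smul, e])
  have key : ∀ y ∈ T, ∃ μ : Measure E, μ ≤ mF m F (ν.restrict (U y)) ∧
      Tendsto (th (m + 1) μ (F x)) (𝓝[>] 0) (𝓝 1) := fun y hy => by
    obtain ⟨O', -, -, -, -, ht⟩ := loc_stat h.dim (h1 y hy).2.2.loc
      ⟨_, norm_pos_iff.2 hp, _, ⟨y, (h1 y hy).1, rfl⟩, (h1 y hy).2.1⟩
    refine ⟨_, ?_, ht⟩
    rw [hν.cone _ (h1 y hy).2.2.isOpen.measurableSet (h1 y hy).2.2.inj]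
    exact Measure.restrict_mono inter_subset_left le_rfl
  obtain ⟨μ, hμ, ht⟩ := key x hx
  obtain ⟨μ', hμ', ht'⟩ := key x' hx'
  have hle : μ + μ' ≤ mF m F ν := by
    refine (add_le_add hμ hμ').trans ?_
    rw [mF, mF, ← Measure.map_add _ _ (measurable_cone h.cont), ← Measure.prod_add,
      ← Measure.restrict_union (h2 hx hx' hne) (h1 x' hx').2.2.isOpen.measurableSet]
    exact Measure.map_mono (Measure.prod_mono le_rfl Measure.restrict_le_self) (measurable_cone h.cont)
  have h4 : (1 : ℝ) + 1 ≤ th (m + 1) (mF m F ν) 0 1 :=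
    le_of_tendsto (ht.add ht') (eventually_mem_nhdsWithin.mono fun r hr => by
      have hi := integrable_mF h hν.fin (m + 1) (F x) hr
      refine le_trans ?_ (hup r hr)
      rw [th, th, ← integral_add_measure (hi.mono_measure ((Measure.le_add_right le_rfl).trans hle))
        (hi.mono_measure ((Measure.le_add_left le_rfl).trans hle))]
      exact integral_mono_measure hle (Eventually.of_forall fun y => (gk_pos _ _ hr y).le) hi)
  linarith

end Crest.Agent.R246.J1
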