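import Crest.Agent.R246.J1.Sheet
import Crest.Agent.R246.J1.Area

/-!
R246/J1/Vol: the volume measure of `M`.  Statements FROZEN (owner helper2).
-/

set_option autoImplicit false
set_option linter.unusedSectionVars false

open MeasureTheory Metric Filter Topology Set Module
open scoped RealInnerProductSpace ENNReal ContDiff Real

noncomputable section

namespace Crest.Agent.R246.J1

variable {m : ℕ} {E : Type} [NormedAddCommGroup E] [InnerProductSpace ℝ E] [FiniteDimensional ℝ E]
variable [MeasurableSpace E] [BorelSpace E]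
variable {M : Type*} [MetricSpace M] [CompactSpace M] [MeasurableSpace M] [BorelSpace M] {F : M → E}

theorem vol_meas (hF : Continuous F) {A : Set M} (hA : MeasurableSet A) (hi : InjOn F A) :
    MeasurableSet (F '' A) :=
  hA.image_of_continuousOn_injOn hF.continuousOn hi

/-- additivity of `A ↦ μ (F '' A)` where `F` is injective -/
theorem vol_iUnion (hF : Continuous F) (μ : Measure E) {A : ℕ → Set M} (hA : ∀ i, MeasurableSet (A i))
    (hd : Pairwise (Function.onFun Disjoint A)) (hi : InjOn F (⋃ i, A i)) :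
    μ (F '' ⋃ i, A i) = ∑' i, μ (F '' A i) := by
  rw [image_iUnion, measure_iUnion (fun i j hij =>
    (hd hij).image hi (subset_iUnion _ i) (subset_iUnion _ j))
    fun i => vol_meas hF (hA i) (hi.mono (subset_iUnion _ i))]

theorem vol_split {κ : M → ℕ} (A : Set M) : ⋃ k, A ∩ κ ⁻¹' {k} = A := by
  ext x
  simp

theorem vol_disj {κ : M → ℕ} (A : Set M) :
    Pairwise (Function.onFun Disjoint fun k => A ∩ κ ⁻¹' {k}) := fun _ _ hij =>
  disjoint_left.2 fun _ hi hj => hij (hi.2.symm.trans hj.2)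

/-- `Measure.ofMeasurable fun A _ => ∑' k, μ (F '' (A ∩ κ ⁻¹' {k}))`, Lusin–Souslin
`MeasurableSet.image_of_continuousOn_injOn` -/
theorem exists_pull (hF : Continuous F) (μ : Measure E) {κ : M → ℕ} (hκ : Measurable κ)
    (hi : ∀ k, InjOn F (κ ⁻¹' {k})) :
    ∃ ν : Measure M, ∀ A, MeasurableSet A → InjOn F A → ν A = μ (F '' A) := by
  refine ⟨Measure.ofMeasurable (fun A _ => ∑' k, μ (F '' (A ∩ κ ⁻¹' {k}))) (by simp)
    fun A hA hd => ?_, fun A hA hiA => ?_⟩
  · rw [ENNReal.tsum_comm]
    refine tsum_congr fun k => ?_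
    rw [iUnion_inter, vol_iUnion hF μ (fun i => (hA i).inter (hκ (measurableSet_singleton k)))
      (fun i j hij => (hd hij).mono inter_subset_left inter_subset_left)
      ((hi k).mono (iUnion_subset fun i => inter_subset_right))]
  · rw [Measure.ofMeasurable_apply _ hA, ← vol_iUnion hF μ
      (fun k => hA.inter (hκ (measurableSet_singleton k))) (vol_disj A) (by rwa [vol_split]), vol_split]

theorem pull_map (hF : Continuous F) {μ : Measure E} {ν : Measure M}
    (hν : ∀ A, MeasurableSet A → InjOn F A → ν A = μ (F '' A)) {A : Set M} (hA : MeasurableSet A)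
    (hi : InjOn F A) : (ν.restrict A).map F = μ.restrict (F '' A) := by
  ext B hB
  rw [Measure.map_apply hF.measurable hB, Measure.restrict_apply (hF.measurable hB),
    Measure.restrict_apply hB, hν _ ((hF.measurable hB).inter hA) (hi.mono inter_subset_right),
    image_preimage_inter]

/-- `LipschitzWith.hausdorffMeasure_image_le`, `euclideanHausdorffMeasure_def` -/
theorem pull_le (hF : LipschitzWith 1 F) {ν : Measure M}
    (hν : ∀ A, MeasurableSet A → InjOn F A → ν A = (μHE[m] : Measure E) (F '' A)) {κ : M → ℕ}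
    (hκ : Measurable κ) (hi : ∀ k, InjOn F (κ ⁻¹' {k})) : ν univ ≤ (μHE[m] : Measure M) univ := by
  have hm : ∀ k, MeasurableSet (univ ∩ κ ⁻¹' {k}) := fun k =>
    MeasurableSet.univ.inter (hκ (measurableSet_singleton k))
  rw [← vol_split (κ := κ) univ, measure_iUnion (vol_disj _) hm, measure_iUnion (vol_disj _) hm]
  refine ENNReal.tsum_le_tsum fun k => ?_
  rw [hν _ (hm k) ((hi k).mono inter_subset_right)]
  simp only [Measure.euclideanHausdorffMeasure_def, Measure.smul_apply, ENNReal.smul_def, smul_eq_mul]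
  gcongr
  simpa using hF.hausdorffMeasure_image_le (d := m) m.cast_nonneg (univ ∩ κ ⁻¹' {k})

variable [ChartedSpace (Hm m) M]

theorem measurable_cone (hF : Continuous F) : Measurable fun z : ℝ × M => z.1 • F z.2 :=
  (continuous_fst.smul (hF.comp continuous_snd)).measurable

/-- one patch: `cone_area` with `O = φ '' U`, `S = φ '' A`, `pull_map`, `lintegral_prod` -/
theorem Cfg.cone_patch (h : Cfg m F) (hA : StArea E) {ν : Measure M} (hf : ν univ < ⊤)
    (hν : ∀ A, MeasurableSet A → InjOn F A → ν A = (μHE[m] : Measure E) (F '' A)) {x : M}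
    {U : Set M} (hU : IsOpen U) (hUx : U ⊆ (chartAt (Hm m) x).source) (hi : InjOn F U) {A : Set M}
    (hm : MeasurableSet A) (hAU : A ⊆ U) :
    MeasurableSet (cn (F '' A)) ∧ mF m F (ν.restrict A) = ar (m + 1) (cn (F '' A)) := by
  have : IsFiniteMeasure ν := ⟨hf⟩
  set φ := chartAt (Hm m) x with hφ
  have hF : ∀ y ∈ U, ch m F x (φ y) = F y := fun y hy => by rw [ch, φ.left_inv (hUx hy)]
  have hI : Imm (ch m F x) (φ '' U) := (h.imm x).mono (φ.isOpen_image_of_subset_source hU hUx)
    (by rintro _ ⟨y, hy, rfl⟩; exact φ.map_source (hUx hy))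
  have him : ch m F x '' (φ '' A) = F '' A := by
    rw [image_image]
    exact image_congr fun y hy => hF y (hAU hy)
  obtain ⟨h1, h2⟩ := hI.cone_area hA (by
      rintro _ ⟨y, hy, rfl⟩ _ ⟨y', hy', rfl⟩ e
      rw [hF y hy, hF y' hy'] at e
      rw [hi hy hy' e]) (image_mono hAU)
    (hm.image_of_continuousOn_injOn (φ.continuousOn.mono (hAU.trans hUx)) (φ.injOn.mono (hAU.trans hUx)))
  rw [him] at h1 h2
  refine ⟨h1, Measure.ext_of_lintegral _ fun g hg => ?_⟩
  rw [ar, h2 g hg, mF, lintegral_map hg (measurable_cone h.cont),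
    lintegral_prod (fun z : ℝ × M => g (z.1 • F z.2)) (hg.comp (measurable_cone h.cont)).aemeasurable]
  refine lintegral_congr fun t => ?_
  rw [← pull_map h.cont hν hm (hi.mono hAU),
    lintegral_map (f := fun y => g (t • y)) (hg.comp (measurable_const_smul t)) h.cont.measurable]

/-- `exists_part` for `N x` = an open patch; split `A = ⋃ k, A ∩ κ ⁻¹' {k}`, the cones over the
pieces are disjoint (`‖F‖ = 1`, `InjOn F A`); `Measure.restrict_iUnion`, `Measure.prod_sum_right`,
`Measure.map_sum` -/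
theorem Cfg.exists_vol [Nonempty M] (h : Cfg m F) (hA : StArea E) (hL : LipschitzWith 1 F)
    (hf : (μHE[m] : Measure M) univ < ⊤) :
    ∃ ν : Measure M, IsVol m F ν ∧ ν univ ≤ (μHE[m] : Measure M) univ := by
  choose U f O hx hU hS using fun x => h.exists_sheet x one_pos (chart_source_mem_nhds (Hm m) x)
  obtain ⟨x, κ, hκ, hy⟩ := exists_part (N := U) fun x => (hS x).isOpen.mem_nhds (hx x)
  have hsub : ∀ k, κ ⁻¹' {k} ⊆ U (x k) := fun k y hk => by rw [← show κ y = k from hk]; exact hy y
  have hi : ∀ k, InjOn F (κ ⁻¹' {k}) := fun k => (hS _).inj.mono (hsub k)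
  obtain ⟨ν, hν⟩ := exists_pull h.cont μHE[m] hκ hi
  have hle := pull_le hL hν hκ hi
  have hfin := hle.trans_lt hf
  have : IsFiniteMeasure ν := ⟨hfin⟩
  have hp : ∀ A, MeasurableSet A → ∀ k, _ := fun A hA' k => h.cone_patch hA hfin hν (hS (x k)).isOpen
    (hU _) (hS _).inj (hA'.inter (hκ (measurableSet_singleton k))) (inter_subset_right.trans (hsub k))
  have hu : ∀ A, cn (F '' A) = ⋃ k, cn (F '' (A ∩ κ ⁻¹' {k})) := fun A => by
    refine Subset.antisymm ?_ (iUnion_subset fun k => ?_)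
    · rintro _ ⟨t, ht, _, ⟨y, hy, rfl⟩, rfl⟩
      exact mem_iUnion.2 ⟨κ y, t, ht, _, ⟨y, ⟨hy, rfl⟩, rfl⟩, rfl⟩
    · rintro _ ⟨t, ht, _, ⟨y, hy, rfl⟩, rfl⟩
      exact ⟨t, ht, _, ⟨y, hy.1, rfl⟩, rfl⟩
  refine ⟨ν, ⟨hfin, fun A hA' _ => ?_, fun A hA' hiA => ?_⟩, hle⟩
  · rw [hu]
    exact MeasurableSet.iUnion fun k => (hp A hA' k).1
  · have hd : Pairwise (Function.onFun Disjoint fun k => cn (F '' (A ∩ κ ⁻¹' {k}))) := fun i j hij => by
      refine disjoint_left.2 ?_
      rintro _ ⟨t, ht, _, ⟨y, hy, rfl⟩, rfl⟩ ⟨s, hs, _, ⟨z, hz, rfl⟩, e⟩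
      have e1 : t = s := by rw [← norm_cn (h.unit y) ht, e, norm_cn (h.unit z) hs]
      rw [e1] at e
      have e2 := hiA hy.1 hz.1 (smul_right_injective E hs.ne' e)
      exact hij (hy.2.symm.trans (e2 ▸ hz.2))
    rw [hu, ar, Measure.restrict_iUnion hd fun k => (hp A hA' k).1]
    conv_lhs => rw [← vol_split (κ := κ) A, mF, Measure.restrict_iUnion (vol_disj A)
      fun k => hA'.inter (hκ (measurableSet_singleton k))]
    rw [Measure.prod_sum_right, Measure.map_sum (measurable_cone h.cont).aemeasurable]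
    exact congrArg _ (funext fun k => (hp A hA' k).2)

end Crest.Agent.R246.J1
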